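import Crest.Agent.R339.Defs

/-!
# Row 339, block C (`n → ∞` limit of the QAOA energy): definitions (owner helper70, FROZEN)

Words `r : Wd` are REVERSED lists of angles (head = last layer).  A one-sided path `x : Pt r` lists the spin values, latest first;
`x.1` is the final spin, `hd x.2` the spin at the last cost gate.  `P2 r` = pairs (ket path, bra path).
`Zs r ι lam W` is the disorder averaged path sum on the sites `ι` with one-site weights `W`; `om r` is its `n → ∞` one-site limit.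
-/

set_option autoImplicit false
set_option linter.unusedVariables false
set_option linter.unusedSectionVars false
open MeasureTheory ProbabilityTheory Filter Topology Complex
open Crest.MathPhysics.SpinGlass
open scoped ComplexConjugate

noncomputable section
namespace Crest.Agent.R339.C

abbrev Wd := List (ℝ × ℝ)

/-- one-sided paths -/
def Pt : Wd → Type
  | [] => Bool
  | _ :: r => Bool × Pt r

instance instFintypePt : ∀ r, Fintype (Pt r)
  | [] => inferInstanceAs (Fintype Bool)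
  | _ :: r => letI := instFintypePt r; inferInstanceAs (Fintype (Bool × Pt r))

instance instDecEqPt (r : Wd) : DecidableEq (Pt r) := Classical.decEq _

/-- the latest spin -/
def hd : ∀ {r : Wd}, Pt r → Bool
  | [], z => z
  | _ :: _, x => x.1

/-- extend a path by a new final spin -/
def pc (a : ℝ × ℝ) {r : Wd} (z : Bool) (x : Pt r) : Pt (a :: r) := (z, x)

/-- matrix entry of the one-qubit mixer -/
def mixE (β : ℝ) (σ τ : Bool) : ℂ := if σ = τ then ((Real.cos β : ℝ) : ℂ) else -(I * ((Real.sin β : ℝ) : ℂ))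

def amp : ∀ r : Wd, Pt r → ℂ
  | [], _ => 1
  | a :: r, x => mixE a.2 x.1 (hd x.2) * amp r x.2

def phi : ∀ r : Wd, Pt r → Pt r → ℝ
  | [], _, _ => 0
  | a :: r, x, x' => a.1 * (spinSign (hd x.2) * spinSign (hd x'.2)) + phi r x.2 x'.2

abbrev P2 (r : Wd) := Pt r × Pt r

/-- tail of a two-sided path -/
def tl {a : ℝ × ℝ} {r : Wd} (b : P2 (a :: r)) : P2 r := (b.1.2, b.2.2)

/-- two-sided one-site amplitude -/
def ff (r : Wd) (b : P2 r) : ℂ := if hd b.1 = hd b.2 then 1 / 2 * (conj (amp r b.2) * amp r b.1) else 0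

def Ph (r : Wd) (b c : P2 r) : ℝ := phi r b.1 c.1 - phi r b.2 c.2

/-- `Ph` after one more cost gate `γ` -/
def Phn (γ : ℝ) (r : Wd) (b c : P2 r) : ℝ :=
  γ * (spinSign (hd b.1) * spinSign (hd c.1) - spinSign (hd b.2) * spinSign (hd c.2)) + Ph r b c

def HH : ∀ r : Wd, P2 r → ℂ
  | [], _ => 1
  | a :: r, b => cexp (-(1 / 2) * ∑ c : P2 r, ff r c * HH r c * ((Phn a.1 r (tl b) c ^ 2 : ℝ) : ℂ))

/-- the limiting one-site functional -/
def om (r : Wd) (u : P2 r → ℂ) : ℂ := ∑ c : P2 r, ff r c * HH r c * u c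

/-- the limiting energy -/
def eC (r : Wd) : ℂ :=
  -I / 2 * om r fun c => om r fun d => ((spinSign (hd c.1) * spinSign (hd d.1) * Ph r c d : ℝ) : ℂ)

/-- Gaussian weight of a configuration of paths -/
def wt (r : Wd) {ι : Type} [Fintype ι] [DecidableEq ι] (lam : ℝ) (a : ι → P2 r) : ℂ :=
  cexp (-((lam / 4 * ∑ i, ∑ j, if i = j then 0 else Ph r (a i) (a j) ^ 2 : ℝ) : ℂ))

def Zs (r : Wd) (ι : Type) [Fintype ι] [DecidableEq ι] (lam : ℝ) (W : ι → P2 r → ℂ) : ℂ :=
  ∑ a : ι → P2 r, (∏ i, ff r (a i) * W i (a i)) * wt r lam a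

/-! ### `n` qubits -/

def enC (n : ℕ) (c : ℝ) (J : Fin n → Fin n → ℝ) (σ : Fin n → Bool) : ℝ :=
  c * ∑ i, ∑ j, if i < j then J i j * spinSign (σ i) * spinSign (σ j) else 0

def costE {n : ℕ} (E : (Fin n → Bool) → ℝ) (γ : ℝ) (ψ : (Fin n → Bool) → ℂ) : (Fin n → Bool) → ℂ :=
  fun σ => cexp (-(I * (γ : ℂ) * (E σ : ℂ))) * ψ σ

def stE (n : ℕ) (E : (Fin n → Bool) → ℝ) : Wd → (Fin n → Bool) → ℂ
  | [] => plusState n
  | a :: r => mixerRotation n a.2 (costE E a.1 (stE n E r))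

def phE (n : ℕ) (E : (Fin n → Bool) → ℝ) : ∀ r : Wd, (Fin n → Pt r) → ℝ
  | [], _ => 0
  | a :: r, x => a.1 * E (fun i => hd (x i).2) + phE n E r fun i => (x i).2

/-- the state with one-site path weights `u` -/
def ketN (n : ℕ) (E : (Fin n → Bool) → ℝ) (r : Wd) (u : Fin n → Pt r → ℂ) (σ : Fin n → Bool) : ℂ :=
  ∑ x : Fin n → Pt r, (∏ i, if hd (x i) = σ i then (((1 : ℝ) / Real.sqrt 2 : ℝ) : ℂ) * (amp r (x i) * u i (x i)) else 0) *
    cexp (-(I * (phE n E r x : ℂ)))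

/-- weights that factorise over the times, all factors of modulus at most one -/
def Fac : ∀ r : Wd, (Pt r → ℂ) → Prop
  | [], u => ∀ z, ‖u z‖ ≤ 1
  | _ :: r, u => ∃ (d : Bool → ℂ) (u' : Pt r → ℂ), (∀ z, ‖d z‖ ≤ 1) ∧ Fac r u' ∧ u = fun x => d x.1 * u' x.2

def tt (n : ℕ) (c : ℝ) (r : Wd) (a : Fin n → P2 r) (i j : Fin n) : ℝ := if i < j then c * Ph r (a i) (a j) else 0

/-- factorisation of the correlators -/
def Fact (r : Wd) : Prop :=
  ∀ (m : ℕ) (N : ℕ → ℕ) (lam : ℕ → ℝ), Tendsto N atTop atTop → (∀ n, 0 ≤ lam n) →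
    Tendsto (fun n => lam n * N n) atTop (𝓝 1) → ∀ (W : ℕ → Fin m → P2 r → ℂ) (W0 : Fin m → P2 r → ℂ),
      (∀ i b, Tendsto (fun n => W n i b) atTop (𝓝 (W0 i b))) →
        Tendsto (fun n => Zs r (Fin m ⊕ Fin (N n)) (lam n) (Sum.elim (W n) 1)) atTop (𝓝 (∏ i, om r (W0 i)))

/-! ### Fock side -/

section
variable {E K : Type} [NormedAddCommGroup E] [InnerProductSpace ℂ E]
  [NormedAddCommGroup K] [InnerProductSpace ℂ K] [CompleteSpace K] (M : Model E K) (j : K →ₗᵢ[ℂ] E)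

def Vr : Wd → K →L[ℂ] K
  | [] => 1
  | a :: r => M.pstep j (Vr r) a

def ps (r : Wd) : K := M.psi (Vr M j r)

/-- total displacement along a path (before `j`) -/
def Lv : ∀ r : Wd, Pt r → K
  | [], _ => 0
  | a :: r, x => ((a.1 * spinSign (hd x.2) : ℝ) : ℂ) • ps M j r + Lv r x.2

def Wop : ∀ r : Wd, Pt r → K →L[ℂ] K
  | [], _ => 1
  | a :: r, x => M.W (((a.1 * spinSign (hd x.2) : ℝ) : ℂ) • j (ps M j r)) * Wop r x.2

def qq : ∀ r : Wd, Pt r → ℂ
  | [], _ => 0
  | a :: r, x => ((a.1 ^ 2 / 2 : ℝ) : ℂ) + ((a.1 * spinSign (hd x.2) : ℝ) : ℂ) * inner ℂ (ps M j r) (Lv M j r x.2) + qq r x.2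

def Tv : Wd → K → K
  | [], _ => 0
  | a :: r, η => (((a.1 : ℝ) : ℂ) * inner ℂ (ps M j r) η) • ps M j r + Tv r η

def ketF (r : Wd) (u : Pt r → ℂ) (ξ : K) : K := ∑ x : Pt r, (amp r x * u x) • M.P (hd x) (Wop M j r x ξ)

end

/-! ### basic facts -/

variable {a : ℝ × ℝ} {r : Wd}

theorem sum_nil {A : Type*} [AddCommMonoid A] (F : Pt [] → A) : ∑ x, F x = ∑ z : Bool, F z := rfl

theorem sum_cons {A : Type*} [AddCommMonoid A] (F : Pt (a :: r) → A) : ∑ x, F x = ∑ z : Bool, ∑ y : Pt r, F (pc a z y) :=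
  Fintype.sum_prod_type (α₁ := Bool) (α₂ := Pt r) F

@[simp] theorem hd_nil (z : Pt []) : hd z = z := rfl
@[simp] theorem hd_pc (z : Bool) (x : Pt r) : hd (pc a z x) = z := rfl
@[simp] theorem pc_fst (z : Bool) (x : Pt r) : (pc a z x).1 = z := rfl
@[simp] theorem pc_snd (z : Bool) (x : Pt r) : (pc a z x).2 = x := rfl
theorem hd_cons (x : Pt (a :: r)) : hd x = x.1 := rfl
theorem pc_eta (x : Pt (a :: r)) : pc a x.1 x.2 = x := rfl
theorem amp_nil (x : Pt []) : amp [] x = 1 := rfl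
theorem amp_cons (x : Pt (a :: r)) : amp (a :: r) x = mixE a.2 x.1 (hd x.2) * amp r x.2 := rfl
theorem phi_nil (x y : Pt []) : phi [] x y = 0 := rfl
theorem phi_cons (x y : Pt (a :: r)) :
    phi (a :: r) x y = a.1 * (spinSign (hd x.2) * spinSign (hd y.2)) + phi r x.2 y.2 := rfl
theorem HH_nil (b : P2 []) : HH [] b = 1 := rfl
theorem HH_cons (b : P2 (a :: r)) :
    HH (a :: r) b = cexp (-(1 / 2) * om r fun c => ((Phn a.1 r (tl b) c ^ 2 : ℝ) : ℂ)) := rfl

theorem sg_sq (b : Bool) : spinSign b * spinSign b = 1 := by cases b <;> simp [spinSign]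

theorem phi_comm : ∀ (r : Wd) (x y : Pt r), phi r x y = phi r y x
  | [], _, _ => rfl
  | a :: r, x, y => by rw [phi_cons, phi_cons, phi_comm r x.2 y.2, mul_comm (spinSign (hd x.2))]

theorem Ph_comm (b c : P2 r) : Ph r b c = Ph r c b := by rw [Ph, Ph, phi_comm r b.1, phi_comm r b.2]

theorem Ph_nil (b c : P2 []) : Ph [] b c = 0 := by rw [Ph, phi_nil, phi_nil, sub_zero]

theorem Ph_cons (b c : P2 (a :: r)) : Ph (a :: r) b c = Phn a.1 r (tl b) (tl c) := by
  simp only [Ph, Phn, phi_cons, tl]; ring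

/-- unitarity of the one-qubit mixer -/
theorem mixE_unit (β : ℝ) (τ τ' : Bool) : ∑ z, conj (mixE β z τ') * mixE β z τ = if τ = τ' then 1 else 0 := by
  have h : ((Real.cos β : ℝ) : ℂ) ^ 2 + ((Real.sin β : ℝ) : ℂ) ^ 2 = 1 := by exact_mod_cast Real.cos_sq_add_sin_sq β
  cases τ <;> cases τ' <;>
    simp only [mixE, Fintype.sum_bool, if_true, Bool.true_eq_false, Bool.false_eq_true, if_false, map_neg, map_mul, conj_I,
      conj_ofReal] <;> first | ring1 | linear_combination h - ((Real.sin β : ℝ) : ℂ) ^ 2 * I_mul_I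

end Crest.Agent.R339.C
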