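import Crest.Agent.R339.C.Defs
import Crest.Agent.R339.Api.A3

/-! R339/C: path sums in the spin-boson model. -/

set_option autoImplicit false
set_option linter.unusedVariables false
set_option linter.unusedSectionVars false
open MeasureTheory ProbabilityTheory Filter Topology Complex
open Crest.MathPhysics.SpinGlass
open scoped ComplexConjugate

noncomputable section
namespace Crest.Agent.R339.C

variable {E K : Type} [NormedAddCommGroup E] [InnerProductSpace ℂ E]
  [NormedAddCommGroup K] [InnerProductSpace ℂ K] [CompleteSpace K] (M : Model E K) (j : K →ₗᵢ[ℂ] E)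
variable {a : ℝ × ℝ} {r : Wd} {ξ η : K}

/-! ### part a: operators -/

theorem Z_P (b : Bool) (ξ : K) : M.Z (M.P b ξ) = ((spinSign b : ℝ) : ℂ) • M.P b ξ := by
  exact congrArg (fun T : K →L[ℂ] K => T ξ) (M.Z_P b)

theorem P_sum (ξ : K) : ∑ z : Bool, M.P z ξ = ξ := by
  rw [Fintype.sum_bool, add_comm]
  exact congrArg (fun T : K →L[ℂ] K => T ξ) M.P_add

theorem WZ_P (f : E) (b : Bool) (ξ : K) : M.WZ f (M.P b ξ) = M.P b (M.W (((spinSign b : ℝ) : ℂ) • f) ξ) := by
  exact congrArg (fun T : K →L[ℂ] K => T ξ) (M.WZ_P f b)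

/-- `X P b = P (!b) X` -/
theorem RX_P (β : ℝ) (b : Bool) (hξ : M.X ξ = ξ) : M.RX β (M.P b ξ) = ∑ z : Bool, mixE β z b • M.P z ξ := by
  have h : M.X (M.P b ξ) = M.P (!b) ξ := by
    have := congrArg (fun T : K →L[ℂ] K => T ξ) (M.X_P b)
    simpa only [ContinuousLinearMap.mul_apply, hξ] using this
  have e : M.RX β (M.P b ξ) = ((Real.cos β : ℝ) : ℂ) • M.P b ξ - (I * ((Real.sin β : ℝ) : ℂ)) • M.X (M.P b ξ) := rfl
  rw [e, h, Fintype.sum_bool]
  cases b <;> simp only [mixE, if_true, Bool.true_eq_false, Bool.false_eq_true, if_false, Bool.not_true, Bool.not_false,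
    neg_smul] <;> abel

/-- `⟪η, Z ξ⟫ = ⟪X η, Z X ξ⟫ = -⟪η, Z ξ⟫` -/
theorem inner_P_P (b b' : Bool) (hη : M.X η = η) (hξ : M.X ξ = ξ) :
    inner ℂ (M.P b' η) (M.P b ξ) = if b = b' then 1 / 2 * inner ℂ η ξ else 0 := by
  have h1 : inner ℂ (M.P b' η) (M.P b ξ) = inner ℂ η ((M.P b' * M.P b) ξ) := by
    rw [ContinuousLinearMap.mul_apply, ← inner_star_left (M.P b'), M.P_star]
  rw [h1]
  split_ifs with h
  · subst h
    have hz : inner ℂ η (M.Z ξ) = 0 := by
      refine M.inner_even_odd hη ?_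
      have := congrArg (fun T : K →L[ℂ] K => T ξ) M.Z_X
      simp only [ContinuousLinearMap.mul_apply, hξ, ContinuousLinearMap.neg_apply] at this
      simpa using congrArg Neg.neg this.symm
    have e : M.P b ξ = (1 / 2 : ℂ) • (ξ + ((spinSign b : ℝ) : ℂ) • M.Z ξ) := rfl
    rw [M.P_P, e, inner_smul_right, inner_add_right, inner_smul_right, hz, mul_zero, add_zero]
  · have : b = !b' := by cases b <;> cases b' <;> simp_all
    rw [this, M.P_P_not, ContinuousLinearMap.zero_apply, inner_zero_right]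

theorem inner_RX (β : ℝ) (η ξ : K) : inner ℂ (M.RX β η) (M.RX β ξ) = inner ℂ η ξ := by
  exact unit_inner (M.RX_mem β) η ξ

theorem inner_WZ (f : E) (η ξ : K) : inner ℂ (M.WZ f η) (M.WZ f ξ) = inner ℂ η ξ := by
  exact unit_inner (M.WZ_mem f) η ξ

theorem inner_Z (η ξ : K) : inner ℂ (M.Z η) ξ = inner ℂ η (M.Z ξ) := by
  rw [← inner_star_left, M.Z_star]

theorem Vr_cons (ξ : K) : Vr M j (a :: r) ξ = M.RX a.2 (M.WZ (((a.1 : ℝ) : ℂ) • j (ps M j r)) (Vr M j r ξ)) := rfl

theorem fk_mem (r : Wd) : Vr M j r ∈ unitary (K →L[ℂ] K) := by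
  induction r with
  | nil => exact one_mem _
  | cons a r ih => exact mul_mem (mul_mem (M.RX_mem _) (M.WZ_mem _)) ih

theorem Vr_unit (r : Wd) : star (Vr M j r) * Vr M j r = 1 ∧ Vr M j r * star (Vr M j r) = 1 := by
  exact fk_mem M j r

theorem Vr_ps (r : Wd) : Vr M j r (ps M j r) = M.Z (Vr M j r M.Ω) := by
  exact unit_apply_star (fk_mem M j r) _

theorem inner_Vr (r : Wd) (η ξ : K) : inner ℂ (Vr M j r η) (Vr M j r ξ) = inner ℂ η ξ := by
  exact unit_inner (fk_mem M j r) η ξ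

theorem inner_ps (r : Wd) : inner ℂ (ps M j r) (ps M j r) = 1 := by
  rw [← inner_Vr M j r, Vr_ps, unit_inner M.Z_mem, inner_Vr, inner_self_eq_norm_sq_to_K, M.norm_Ω]
  simp

theorem prun_eq (w : List (ℝ × ℝ)) : M.prun j w = Vr M j w.reverse := by
  rw [Model.prun, ← List.foldr_reverse]
  induction w.reverse with
  | nil => rfl
  | cons a r ih => rw [List.foldr_cons, ih]; rfl

/-! ### part b: kets -/

theorem X_Wop (hξ : M.X ξ = ξ) (r : Wd) (x : Pt r) : M.X (Wop M j r x ξ) = Wop M j r x ξ := by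
  induction r with
  | nil => exact hξ
  | cons a r ih =>
    have := congrArg (fun T : K →L[ℂ] K => T (Wop M j r x.2 ξ))
      (M.X_W (((a.1 * spinSign (hd x.2) : ℝ) : ℂ) • j (ps M j r))).eq
    simp only [ContinuousLinearMap.mul_apply, ih] at this
    exact this

theorem ketF_cons (hξ : M.X ξ = ξ) (u : Pt r → ℂ) :
    ketF M j (a :: r) (fun x => u x.2) ξ = M.RX a.2 (M.WZ (((a.1 : ℝ) : ℂ) • j (ps M j r)) (ketF M j r u ξ)) := by
  rw [ketF, ketF, sum_cons, Finset.sum_comm, map_sum, map_sum]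
  refine Finset.sum_congr rfl fun y _ => ?_
  have hX : M.X (Wop M j (a :: r) (pc a true y) ξ) = Wop M j (a :: r) (pc a true y) ξ := X_Wop M j hξ _ _
  have e : M.W (((spinSign (hd y) : ℝ) : ℂ) • ((a.1 : ℝ) : ℂ) • j (ps M j r)) (Wop M j r y ξ) =
      Wop M j (a :: r) (pc a true y) ξ := by
    rw [smul_smul, ← ofReal_mul, mul_comm]
    rfl
  rw [map_smul, map_smul, WZ_P, e, RX_P M _ _ hX, Finset.smul_sum]
  refine Finset.sum_congr rfl fun z _ => ?_
  rw [smul_smul, amp_cons]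
  simp only [pc_fst, pc_snd, hd_pc]
  rw [mul_assoc, mul_comm]
  rfl

theorem ketF_one (hξ : M.X ξ = ξ) (r : Wd) : ketF M j r (fun _ => 1) ξ = Vr M j r ξ := by
  induction r with
  | nil =>
    rw [ketF, sum_nil]
    simp only [amp_nil, mul_one, one_smul]
    exact P_sum M ξ
  | cons a r ih => rw [Vr_cons, ← ih, ← ketF_cons M j hξ]

theorem ketF_Z (u : Pt r → ℂ) (ξ : K) :
    ketF M j r (fun x => ((spinSign (hd x) : ℝ) : ℂ) * u x) ξ = M.Z (ketF M j r u ξ) := by
  rw [ketF, ketF, map_sum]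
  refine Finset.sum_congr rfl fun y _ => ?_
  rw [map_smul, Z_P, smul_smul]
  congr 1
  ring

theorem ketF_add (u v : Pt r → ℂ) (ξ : K) : ketF M j r (fun x => u x + v x) ξ = ketF M j r u ξ + ketF M j r v ξ := by
  simp only [ketF, mul_add, add_smul, Finset.sum_add_distrib]

theorem ketF_smul (c : ℂ) (u : Pt r → ℂ) (ξ : K) : ketF M j r (fun x => c * u x) ξ = c • ketF M j r u ξ := by
  rw [ketF, ketF, Finset.smul_sum]
  refine Finset.sum_congr rfl fun y _ => ?_
  rw [smul_smul]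
  congr 1
  ring

theorem inner_ketF (hη : M.X η = η) (hξ : M.X ξ = ξ) (u v : Pt r → ℂ) :
    inner ℂ (ketF M j r v η) (ketF M j r u ξ) =
      ∑ b : P2 r, ff r b * inner ℂ (Wop M j r b.2 η) (Wop M j r b.1 ξ) * (conj (v b.2) * u b.1) := by
  rw [ketF, ketF, Fintype.sum_prod_type, inner_sum]
  refine Finset.sum_congr rfl fun x _ => ?_
  rw [sum_inner]
  refine Finset.sum_congr rfl fun y _ => ?_
  rw [inner_smul_left, inner_smul_right, inner_P_P M _ _ (X_Wop M j hη r y) (X_Wop M j hξ r x), ff, map_mul]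
  split_ifs <;> ring

/-! ### part c: Weyl operators -/

/-- `qq = ‖L‖²/2 + iθ` and `Wop = e^{-iθ} W (j L)`: induction, `W_mul`, `inner_ps` -/
theorem Wop_eq (r : Wd) (x : Pt r) : (qq M j r x).re = ‖Lv M j r x‖ ^ 2 / 2 ∧
    Wop M j r x = cexp (-(I * ((qq M j r x).im : ℂ))) • M.W (j (Lv M j r x)) := by
  induction r with
  | nil => simp [qq, Lv, Wop, M.W_zero]
  | cons a r ih =>
    obtain ⟨h1, h2⟩ := ih x.2
    set c : ℝ := a.1 * spinSign (hd x.2) with hc
    have hc2 : c ^ 2 = a.1 ^ 2 := by rw [hc]; linear_combination a.1 ^ 2 * sg_sq (hd x.2)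
    have hn : ‖ps M j r‖ = 1 := by
      have := inner_ps M j r
      rw [inner_self_eq_norm_sq_to_K] at this
      have h3 : ‖ps M j r‖ ^ 2 = 1 := by
        have h4 : (((‖ps M j r‖ ^ 2 : ℝ)) : ℂ) = ((1 : ℝ) : ℂ) := by push_cast; exact this
        exact ofReal_injective h4
      nlinarith [norm_nonneg (ps M j r)]
    have eq1 : qq M j (a :: r) x = ((a.1 ^ 2 / 2 : ℝ) : ℂ) + (c : ℂ) * inner ℂ (ps M j r) (Lv M j r x.2) + qq M j r x.2 := rfl
    have eq2 : Lv M j (a :: r) x = (c : ℂ) • ps M j r + Lv M j r x.2 := rfl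
    have eq3 : Wop M j (a :: r) x = M.W ((c : ℂ) • j (ps M j r)) * Wop M j r x.2 := rfl
    constructor
    · rw [eq1, eq2, @norm_add_sq ℂ, inner_smul_left, norm_smul, hn, conj_ofReal, add_re, add_re, h1, ofReal_re, norm_real,
        mul_one, Real.norm_eq_abs, sq_abs, hc2]
      simp only [RCLike.re_to_complex]
      ring
    · rw [eq1, eq2, eq3, h2, mul_smul_comm, M.W_mul, smul_smul, ← Complex.exp_add, map_add, map_smul, inner_smul_left,
        conj_ofReal, LinearIsometry.inner_map_map]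
      congr 2
      simp only [add_im, ofReal_im, zero_add]
      push_cast
      ring

theorem fk_W (x y : Pt r) (η : K) : inner ℂ (Wop M j r y η) (Wop M j r x M.Ω) =
    cexp (I * ((qq M j r y).im : ℂ) - I * ((qq M j r x).im : ℂ) + I * ((inner ℂ (Lv M j r y) (Lv M j r x)).im : ℂ)) *
      inner ℂ η (M.W (j (Lv M j r x - Lv M j r y)) M.Ω) := by
  rw [(Wop_eq M j r x).2, (Wop_eq M j r y).2, ContinuousLinearMap.smul_apply, ContinuousLinearMap.smul_apply, inner_smul_left,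
    inner_smul_right, ← inner_star_right, M.W_star, ← ContinuousLinearMap.mul_apply, M.W_mul, ContinuousLinearMap.smul_apply,
    inner_smul_right, ← Complex.exp_conj, inner_neg_left, LinearIsometry.inner_map_map, neg_add_eq_sub, ← map_sub,
    ← mul_assoc, ← mul_assoc, ← Complex.exp_add, ← Complex.exp_add]
  congr 2
  simp only [map_neg, map_mul, conj_I, conj_ofReal, neg_im]
  push_cast
  ring

/-- `W_star`, `W_mul`, `vac` -/
theorem inner_Wop (x y : Pt r) : inner ℂ (Wop M j r y M.Ω) (Wop M j r x M.Ω) =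
    cexp (-(qq M j r x + conj (qq M j r y) - inner ℂ (Lv M j r y) (Lv M j r x))) := by
  rw [fk_W, M.vac, ← Complex.exp_add, LinearIsometry.norm_map]
  congr 1
  have h1 := (Wop_eq M j r x).1
  have h2 := (Wop_eq M j r y).1
  have h3 : ‖Lv M j r x - Lv M j r y‖ ^ 2 =
      ‖Lv M j r y‖ ^ 2 - 2 * (inner ℂ (Lv M j r y) (Lv M j r x)).re + ‖Lv M j r x‖ ^ 2 := by
    rw [norm_sub_rev, @norm_sub_sq ℂ]; rfl
  rw [← ofReal_pow, h3]
  apply Complex.ext <;> simp [h1, h2, -ofReal_pow] <;> ring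

/-- `ι_W`, `vac` -/
theorem inner_Wop_ι (x y : Pt r) (η : K) : inner ℂ (Wop M j r y (M.ι (j η))) (Wop M j r x M.Ω) =
    -I * (inner ℂ η (Lv M j r x) - inner ℂ η (Lv M j r y)) * inner ℂ (Wop M j r y M.Ω) (Wop M j r x M.Ω) := by
  rw [fk_W, fk_W, M.vac, M.ι_W, LinearIsometry.inner_map_map, inner_sub_right]
  ring

end Crest.Agent.R339.C
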