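import Crest.Agent.R339.C.Fock

/-! R339/C: the limiting functional `om` is a vacuum expectation; the energy. -/

set_option autoImplicit false
set_option linter.unusedVariables false
set_option linter.unusedSectionVars false
open MeasureTheory ProbabilityTheory Filter Topology Complex
open Crest.MathPhysics.SpinGlass
open scoped ComplexConjugate

noncomputable section
namespace Crest.Agent.R339.C

variable {E K : Type} [NormedAddCommGroup E] [InnerProductSpace ℂ E]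
  [NormedAddCommGroup K] [InnerProductSpace ℂ K] [CompleteSpace K] (M : Model E K) (j : K →ₗᵢ[ℂ] E)
variable {a : ℝ × ℝ} {r : Wd}

theorem f2_s (r : Wd) : ketF M j r (fun y => ((spinSign (hd y) : ℝ) : ℂ)) M.Ω = Vr M j r (ps M j r) := by
  rw [Vr_ps, ← ketF_one M j M.X_Ω, ← ketF_Z]
  simp only [mul_one]

theorem f2_lin (c : ℝ) (x : Pt r) (h : ketF M j r (fun y => ((phi r x y : ℝ) : ℂ)) M.Ω = Vr M j r (Lv M j r x)) :
    ketF M j r (fun y => ((c * spinSign (hd y) + phi r x y : ℝ) : ℂ)) M.Ω =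
      Vr M j r (((c : ℝ) : ℂ) • ps M j r + Lv M j r x) := by
  simp only [ofReal_add, ofReal_mul]
  rw [ketF_add, ketF_smul, f2_s, h, map_add, map_smul]

theorem f2_inner (r : Wd) (η : K) : inner ℂ (Vr M j r M.Ω) (M.Z (Vr M j r η)) = inner ℂ (ps M j r) η := by
  rw [← inner_Z, ← Vr_ps, inner_Vr]

/-- induction: `ketF_cons`, `ketF_add`, `ketF_smul`, `ketF_Z`, `ketF_one`, `Vr_ps` -/
theorem ketF_phi (r : Wd) (x : Pt r) : ketF M j r (fun y => ((phi r x y : ℝ) : ℂ)) M.Ω = Vr M j r (Lv M j r x) := by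
  induction r with
  | nil => simp [ketF, phi_nil, Lv]
  | cons a r ih =>
    have h := ketF_cons M j (a := a) M.X_Ω
      (fun y => ((a.1 * spinSign (hd x.2) * spinSign (hd y) + phi r x.2 y : ℝ) : ℂ))
    rw [f2_lin M j _ _ (ih x.2)] at h
    simp only [phi_cons, ← mul_assoc]
    exact h

theorem f2_sq (c : ℝ) (x : Pt r)
    (h : inner ℂ (Vr M j r M.Ω) (ketF M j r (fun y => ((phi r x y ^ 2 : ℝ) : ℂ)) M.Ω) = 2 * qq M j r x) :
    inner ℂ (Vr M j r M.Ω) (ketF M j r (fun y => (((c * spinSign (hd y) + phi r x y) ^ 2 : ℝ) : ℂ)) M.Ω) =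
      (c : ℂ) ^ 2 + 2 * c * inner ℂ (ps M j r) (Lv M j r x) + 2 * qq M j r x := by
  have e : (fun y : Pt r => (((c * spinSign (hd y) + phi r x y) ^ 2 : ℝ) : ℂ)) = fun y =>
      (c : ℂ) ^ 2 * 1 + ((2 * c : ℂ) * (((spinSign (hd y) : ℝ) : ℂ) * ((phi r x y : ℝ) : ℂ)) + ((phi r x y ^ 2 : ℝ) : ℂ)) := by
    funext y
    have h1 : (c * spinSign (hd y) + phi r x y) ^ 2 = c ^ 2 * 1 + (2 * c * (spinSign (hd y) * phi r x y) + phi r x y ^ 2) := by
      linear_combination c ^ 2 * sg_sq (hd y)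
    rw [h1]; push_cast; ring
  rw [e, ketF_add, ketF_add, ketF_smul, ketF_smul, ketF_Z, ketF_phi, ketF_one M j M.X_Ω, inner_add_right, inner_add_right,
    inner_smul_right, inner_smul_right, h, f2_inner, inner_Vr, inner_self_eq_norm_sq_to_K, M.norm_Ω]
  simp only [RCLike.ofReal_one, one_pow, mul_one]
  ring

theorem f2_sq' (z : Bool) (x : Pt r)
    (h : inner ℂ (Vr M j r M.Ω) (ketF M j r (fun y => ((phi r x y ^ 2 : ℝ) : ℂ)) M.Ω) = 2 * qq M j r x) :
    inner ℂ (Vr M j r M.Ω)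
      (ketF M j r (fun y => (((a.1 * spinSign (hd x) * spinSign (hd y) + phi r x y) ^ 2 : ℝ) : ℂ)) M.Ω) =
      2 * qq M j (a :: r) (pc a z x) := by
  rw [f2_sq M j _ _ h]
  have h1 : (a.1 * spinSign (hd x)) ^ 2 = a.1 ^ 2 := by linear_combination a.1 ^ 2 * sg_sq (hd x)
  have h2 : (((a.1 * spinSign (hd x) : ℝ)) : ℂ) ^ 2 = (a.1 : ℂ) ^ 2 := by exact_mod_cast h1
  rw [h2]
  simp only [qq, pc_snd]
  push_cast
  ring

theorem ketF_phi_sq (r : Wd) (x : Pt r) :
    inner ℂ (Vr M j r M.Ω) (ketF M j r (fun y => ((phi r x y ^ 2 : ℝ) : ℂ)) M.Ω) = 2 * qq M j r x := by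
  induction r with
  | nil => simp [ketF, phi_nil, qq]
  | cons a r ih =>
    have h := ketF_cons M j (a := a) M.X_Ω
      (fun y => (((a.1 * spinSign (hd x.2) * spinSign (hd y) + phi r x.2 y) ^ 2 : ℝ) : ℂ))
    simp only [phi_cons, ← mul_assoc]
    rw [h, Vr_cons, inner_RX, inner_WZ]
    exact f2_sq' M j x.1 x.2 (ih x.2)

theorem ketF_Tv (r : Wd) (η : K) : ketF M j r (fun y => inner ℂ (Lv M j r y) η) M.Ω = Vr M j r (Tv M j r η) := by
  induction r with
  | nil => simp [ketF, Lv, Tv]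
  | cons a r ih =>
    have h := ketF_cons M j (a := a) M.X_Ω (fun y => (((a.1 : ℝ) : ℂ) * inner ℂ (ps M j r) η) * ((spinSign (hd y) : ℝ) : ℂ) +
      inner ℂ (Lv M j r y) η)
    rw [ketF_add M j (r := r), ketF_smul M j (r := r), f2_s, ih, ← map_smul (Vr M j r), ← map_add (Vr M j r)] at h
    refine Eq.trans ?_ h
    congr 1
    funext y
    simp only [Lv, inner_add_left, inner_smul_left, conj_ofReal]
    push_cast
    ring

theorem Tv_im (r : Wd) (η : K) : (inner ℂ (Tv M j r η) η).im = 0 := by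
  induction r with
  | nil => simp [Tv]
  | cons a r ih =>
    simp only [Tv, inner_add_left, inner_smul_left, add_im, ih, add_zero, map_mul, conj_ofReal, mul_assoc]
    rw [mul_comm (conj _), mul_conj]
    simp

theorem f2_om (h : ∀ b : P2 r, HH r b = inner ℂ (Wop M j r b.2 M.Ω) (Wop M j r b.1 M.Ω)) (u v : Pt r → ℂ) :
    om r (fun b => conj (v b.2) * u b.1) = inner ℂ (ketF M j r v M.Ω) (ketF M j r u M.Ω) := by
  rw [inner_ketF M j M.X_Ω M.X_Ω, om]
  simp only [h]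

theorem f2_om_add (u v : P2 r → ℂ) : om r (fun b => u b + v b) = om r u + om r v := by
  simp only [om, mul_add, Finset.sum_add_distrib]

theorem f2_om_sub (u v : P2 r → ℂ) : om r (fun b => u b - v b) = om r u - om r v := by
  simp only [om, mul_sub, Finset.sum_sub_distrib]

theorem f2_om_smul (c : ℂ) (u : P2 r → ℂ) : om r (fun b => c * u b) = c * om r u := by
  simp only [om, Finset.mul_sum]
  exact Finset.sum_congr rfl fun b _ => by ring

theorem HH_eq (r : Wd) (b : P2 r) : HH r b = inner ℂ (Wop M j r b.2 M.Ω) (Wop M j r b.1 M.Ω) := by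
  induction r with
  | nil =>
    rw [HH_nil]
    simp only [Wop, ContinuousLinearMap.one_apply]
    rw [inner_self_eq_norm_sq_to_K, M.norm_Ω]
    simp
  | cons a r ih =>
    rw [HH_cons, inner_Wop]
    congr 1
    set p : Pt r → Pt r → ℝ := fun x y => a.1 * spinSign (hd x) * spinSign (hd y) + phi r x y with hp
    have e : (fun c : P2 r => ((Phn a.1 r (tl b) c ^ 2 : ℝ) : ℂ)) = fun c =>
        (conj ((fun _ => (1 : ℂ)) c.2) * ((p b.1.2 c.1 ^ 2 : ℝ) : ℂ) + conj ((p b.2.2 c.2 ^ 2 : ℝ) : ℂ) * (fun _ => (1 : ℂ)) c.1) +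
          (-2) * (conj ((p b.2.2 c.2 : ℝ) : ℂ) * ((p b.1.2 c.1 : ℝ) : ℂ)) := by
      funext c
      have h1 : Phn a.1 r (tl b) c = p b.1.2 c.1 - p b.2.2 c.2 := by simp only [Phn, Ph, tl, hp]; ring
      rw [h1]
      simp only [map_one, conj_ofReal]
      push_cast
      ring
    rw [e, f2_om_add, f2_om_add, f2_om_smul (-2),
      f2_om M j ih (fun y => ((p b.1.2 y ^ 2 : ℝ) : ℂ)) (fun _ => 1),
      f2_om M j ih (fun _ => 1) (fun y => ((p b.2.2 y ^ 2 : ℝ) : ℂ)),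
      f2_om M j ih (fun y => ((p b.1.2 y : ℝ) : ℂ)) (fun y => ((p b.2.2 y : ℝ) : ℂ)), ketF_one M j M.X_Ω,
      ← inner_conj_symm (ketF M j r (fun y => ((p b.2.2 y ^ 2 : ℝ) : ℂ)) M.Ω)]
    simp only [hp]
    rw [f2_sq' M j b.1.1 b.1.2 (ketF_phi_sq M j r _), f2_sq' M j b.2.1 b.2.2 (ketF_phi_sq M j r _),
      f2_lin M j _ _ (ketF_phi M j r _), f2_lin M j _ _ (ketF_phi M j r _), inner_Vr, pc_eta, pc_eta]
    have h2 : conj (2 : ℂ) = 2 := map_ofNat _ 2
    rw [map_mul, h2]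
    simp only [Lv]
    ring

theorem om_eq (u v : Pt r → ℂ) :
    om r (fun b => conj (v b.2) * u b.1) = inner ℂ (ketF M j r v M.Ω) (ketF M j r u M.Ω) := by
  exact f2_om M j (HH_eq M j r) u v

theorem En0_eq (r : Wd) : M.En0 j (Vr M j r) = (eC r).re := by
  set ψ := ps M j r with hψ
  set s : Pt r → ℂ := fun y => ((spinSign (hd y) : ℝ) : ℂ) with hs
  have hks : ketF M j r s M.Ω = Vr M j r ψ := f2_s M j r
  set A : K := ketF M j r (fun y => inner ℂ ψ (Lv M j r y)) M.Ω with hA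
  -- the three sums
  have T1 : om r (fun c => s c.1 * inner ℂ ψ (Lv M j r c.1)) = inner ℂ (Vr M j r ψ) A := by
    have := om_eq M j (r := r) (fun y => s y * inner ℂ ψ (Lv M j r y)) (fun _ => 1)
    simp only [map_one, one_mul] at this
    rw [this, ketF_one M j M.X_Ω, hs, ketF_Z, ← inner_Z, ← Vr_ps]
  have T2 : om r (fun c => s c.1 * inner ℂ (Lv M j r c.2) ψ) = conj (inner ℂ (Vr M j r ψ) A) := by
    have := om_eq M j (r := r) s (fun y => inner ℂ ψ (Lv M j r y))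
    rw [hks, ← hA] at this
    rw [inner_conj_symm, ← this]
    simp only [inner_conj_symm, mul_comm]
  have T3 : om r (fun c => s c.1 * inner ℂ ψ (Lv M j r c.2)) = inner ℂ (Tv M j r ψ) ψ := by
    have := om_eq M j (r := r) s (fun y => inner ℂ (Lv M j r y) ψ)
    rw [hks, ketF_Tv, inner_Vr] at this
    rw [← this]
    simp only [inner_conj_symm, mul_comm]
  -- the inner sum of `eC`
  have I1 : ∀ c : P2 r, om r (fun d => ((spinSign (hd c.1) * spinSign (hd d.1) * Ph r c d : ℝ) : ℂ)) =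
      s c.1 * inner ℂ ψ (Lv M j r c.1) - s c.1 * inner ℂ (Lv M j r c.2) ψ := by
    intro c
    have h1 := om_eq M j (r := r) (fun y => s y * ((phi r c.1 y : ℝ) : ℂ)) (fun _ => 1)
    have h2 := om_eq M j (r := r) s (fun y => ((phi r c.2 y : ℝ) : ℂ))
    rw [ketF_one M j M.X_Ω, hs, ketF_Z, ketF_phi, f2_inner] at h1
    rw [hks, ketF_phi, inner_Vr] at h2
    rw [← hψ] at h1
    rw [← h1, ← h2, ← mul_sub, ← f2_om_sub, ← f2_om_smul]
    congr 1
    funext d
    simp only [Ph, hs, map_one, conj_ofReal]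
    push_cast
    ring
  have E1 : eC r = -I / 2 * (inner ℂ (Vr M j r ψ) A - conj (inner ℂ (Vr M j r ψ) A)) := by
    rw [eC]
    simp only [I1]
    rw [f2_om_sub, T1, T2]
  have E2 : inner ℂ (M.ι (j ψ)) ψ = -I * (inner ℂ (Vr M j r ψ) A - inner ℂ (Tv M j r ψ) ψ) := by
    rw [← T1, ← T3, ← inner_Vr M j r, ← hks, ← ketF_one M j (M.X_ι _), inner_ketF M j (M.X_ι _) M.X_Ω, ← f2_om_sub,
      ← f2_om_smul, om]
    refine Finset.sum_congr rfl fun b _ => ?_
    rw [inner_Wop_ι, ← HH_eq, map_one]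
    ring
  have E3 : M.En0 j (Vr M j r) = (inner ℂ (M.ι (j ψ)) ψ).re := by
    rw [← inner_conj_symm, conj_re]
    rfl
  rw [E3, E2, E1]
  have h3 := Tv_im M j r ψ
  simp only [mul_re, neg_re, neg_im, I_re, I_im, sub_re, sub_im, conj_re, conj_im, h3, div_ofNat_re, div_ofNat_im]
  ring

end Crest.Agent.R339.C
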