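import Crest.Agent.R339.C.Defs

/-! R339/C: Gaussian integrals over the couplings. -/

set_option autoImplicit false
set_option linter.unusedVariables false
set_option linter.unusedSectionVars false
open MeasureTheory ProbabilityTheory Filter Topology Complex
open Crest.MathPhysics.SpinGlass
open scoped ComplexConjugate

noncomputable section
namespace Crest.Agent.R339.C

variable {n : ℕ}

/-- `charFun_gaussianReal` -/
theorem gauss1 (t : ℝ) : ∫ x : ℝ, cexp (-(I * ((x * t : ℝ) : ℂ))) ∂(gaussianReal 0 1) = cexp (-((t ^ 2 / 2 : ℝ) : ℂ)) := by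
  have h := complexMGF_id_gaussianReal (μ := 0) (v := 1) (-I * t)
  rw [complexMGF] at h
  convert h using 2
  · ext x
    congr 1
    push_cast
    simp only [id]
    ring
  · push_cast
    linear_combination (-(t : ℂ) ^ 2 / 2) * I_mul_I

/-- write the integral against the density; the derivative of `exp (-x²/2 - i x t)` is `(-x - i t) exp (…)` and has integral zero
(`integral_eq_zero_of_hasDerivAt_of_integrable`) -/
theorem gauss1_mul (t : ℝ) : ∫ x : ℝ, (x : ℂ) * cexp (-(I * ((x * t : ℝ) : ℂ))) ∂(gaussianReal 0 1) =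
    -I * t * cexp (-((t ^ 2 / 2 : ℝ) : ℂ)) := by
  have h1 := hasDerivAt_complexMGF (X := id) (μ := gaussianReal 0 1) (z := -I * t) (by simp)
  have h2 : complexMGF id (gaussianReal 0 1) = fun z : ℂ => cexp (z ^ 2 / 2) := by
    ext z
    rw [complexMGF_id_gaussianReal]
    simp
  rw [h2] at h1
  have h3 : HasDerivAt (fun z : ℂ => cexp (z ^ 2 / 2)) (cexp ((-I * t) ^ 2 / 2) * (-I * t)) (-I * t) := by
    refine ((hasDerivAt_pow 2 (-I * t : ℂ)).div_const 2).cexp.congr_deriv ?_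
    simp
    ring
  have h4 := h1.unique h3
  have h5 : ((-I * t) ^ 2 / 2 : ℂ) = -((t ^ 2 / 2 : ℝ) : ℂ) := by
    push_cast
    linear_combination ((t : ℂ) ^ 2 / 2) * I_mul_I
  rw [mul_comm (-I * t), ← h5, ← h4]
  congr 1
  ext x
  congr 2
  push_cast
  simp only [id]
  ring

instance (n : ℕ) : IsProbabilityMeasure (gaussianCouplings n) := by
  unfold gaussianCouplings; infer_instance

theorem gs_prod (t J : Fin n → Fin n → ℝ) : cexp (-(I * ((∑ i, ∑ j, J i j * t i j : ℝ) : ℂ))) =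
    ∏ i, ∏ j, cexp (-(I * ((J i j * t i j : ℝ) : ℂ))) := by
  simp only [← Complex.exp_sum, Complex.ofReal_sum, Finset.mul_sum, Finset.sum_neg_distrib]

theorem gs_ite (k l : Fin n) (a : Fin n → Fin n → ℂ) : a k l = ∏ i, ∏ j, if i = k ∧ j = l then a i j else 1 := by
  rw [Finset.prod_eq_single k (fun i _ hi => by simp [hi]) (by simp)]
  simp

theorem gs_prod_mul (t J : Fin n → Fin n → ℝ) (k l : Fin n) :
    (J k l : ℂ) * cexp (-(I * ((∑ i, ∑ j, J i j * t i j : ℝ) : ℂ))) =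
      ∏ i, ∏ j, (if i = k ∧ j = l then (J i j : ℂ) else 1) * cexp (-(I * ((J i j * t i j : ℝ) : ℂ))) := by
  rw [gs_prod, gs_ite k l fun i j => (J i j : ℂ)]
  simp only [Finset.prod_mul_distrib]

theorem gs_rhs (t : Fin n → Fin n → ℝ) : cexp (-((1 / 2 * ∑ i, ∑ j, t i j ^ 2 : ℝ) : ℂ)) =
    ∏ i, ∏ j, cexp (-((t i j ^ 2 / 2 : ℝ) : ℂ)) := by
  simp only [← Complex.exp_sum, Finset.sum_neg_distrib, ← Complex.ofReal_sum, ← Finset.sum_div]
  rw [one_div_mul_eq_div]

theorem gs_norm (s : ℝ) : ‖cexp (-(I * (s : ℂ)))‖ = 1 := by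
  rw [Complex.norm_exp]
  simp

theorem gs_int1 (t : ℝ) : Integrable (fun x : ℝ => cexp (-(I * ((x * t : ℝ) : ℂ)))) (gaussianReal 0 1) :=
  (integrable_const (1 : ℝ)).mono' (by fun_prop) (ae_of_all _ fun x => (gs_norm _).le)

theorem gs_int2 (t : ℝ) : Integrable (fun x : ℝ => (x : ℂ) * cexp (-(I * ((x * t : ℝ) : ℂ)))) (gaussianReal 0 1) := by
  have h : Integrable (fun x : ℝ => x) (gaussianReal 0 1) := (memLp_id_gaussianReal' 1 (by simp)).integrable le_rfl
  refine h.norm.mono' (by fun_prop) (ae_of_all _ fun x => ?_)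
  rw [norm_mul, gs_norm, mul_one, Complex.norm_real]

theorem gauss_int (t : Fin n → Fin n → ℝ) :
    Integrable (fun J : Fin n → Fin n → ℝ => cexp (-(I * ((∑ i, ∑ j, J i j * t i j : ℝ) : ℂ)))) (gaussianCouplings n) := by
  simp only [gs_prod]
  exact Integrable.fintype_prod (f := fun i (x : Fin n → ℝ) => ∏ j, cexp (-(I * ((x j * t i j : ℝ) : ℂ))))
    fun i => Integrable.fintype_prod (f := fun j (x : ℝ) => cexp (-(I * ((x * t i j : ℝ) : ℂ)))) fun j => gs_int1 _

theorem gauss_int_mul (t : Fin n → Fin n → ℝ) (k l : Fin n) :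
    Integrable (fun J : Fin n → Fin n → ℝ => (J k l : ℂ) * cexp (-(I * ((∑ i, ∑ j, J i j * t i j : ℝ) : ℂ))))
      (gaussianCouplings n) := by
  simp only [gs_prod_mul]
  refine Integrable.fintype_prod (f := fun i (x : Fin n → ℝ) =>
    ∏ j, (if i = k ∧ j = l then (x j : ℂ) else 1) * cexp (-(I * ((x j * t i j : ℝ) : ℂ))))
    fun i => Integrable.fintype_prod (f := fun j (x : ℝ) =>
      (if i = k ∧ j = l then (x : ℂ) else 1) * cexp (-(I * ((x * t i j : ℝ) : ℂ)))) fun j => ?_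
  split_ifs
  · exact gs_int2 _
  · simpa only [one_mul] using gs_int1 _

/-- the integrand is `∏ i, ∏ j, …`; `integral_fintype_prod_eq_prod` twice -/
theorem gauss_exp (t : Fin n → Fin n → ℝ) :
    ∫ J, cexp (-(I * ((∑ i, ∑ j, J i j * t i j : ℝ) : ℂ))) ∂(gaussianCouplings n) =
      cexp (-((1 / 2 * ∑ i, ∑ j, t i j ^ 2 : ℝ) : ℂ)) := by
  simp only [gs_prod]
  rw [gaussianCouplings, gs_rhs, integral_fintype_prod_eq_prod
    fun i (x : Fin n → ℝ) => ∏ j, cexp (-(I * ((x j * t i j : ℝ) : ℂ)))]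
  refine Finset.prod_congr rfl fun i _ => ?_
  rw [integral_fintype_prod_eq_prod fun j (x : ℝ) => cexp (-(I * ((x * t i j : ℝ) : ℂ)))]
  exact Finset.prod_congr rfl fun j _ => gauss1 _

/-- the integrand is `∏ i, ∏ j, (if i = k ∧ j = l then J i j else 1) * …` -/
theorem gauss_mul (t : Fin n → Fin n → ℝ) (k l : Fin n) :
    ∫ J, (J k l : ℂ) * cexp (-(I * ((∑ i, ∑ j, J i j * t i j : ℝ) : ℂ))) ∂(gaussianCouplings n) =
      -I * t k l * cexp (-((1 / 2 * ∑ i, ∑ j, t i j ^ 2 : ℝ) : ℂ)) := by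
  simp only [gs_prod_mul]
  rw [gaussianCouplings, gs_rhs, gs_ite k l fun i j => -I * (t i j : ℂ), ← Finset.prod_mul_distrib,
    integral_fintype_prod_eq_prod fun i (x : Fin n → ℝ) =>
      ∏ j, (if i = k ∧ j = l then (x j : ℂ) else 1) * cexp (-(I * ((x j * t i j : ℝ) : ℂ)))]
  refine Finset.prod_congr rfl fun i _ => ?_
  rw [← Finset.prod_mul_distrib, integral_fintype_prod_eq_prod fun j (x : ℝ) =>
    (if i = k ∧ j = l then (x : ℂ) else 1) * cexp (-(I * ((x * t i j : ℝ) : ℂ)))]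
  refine Finset.prod_congr rfl fun j _ => ?_
  split_ifs
  · exact gauss1_mul _
  · simpa only [one_mul] using gauss1 _

end Crest.Agent.R339.C
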