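import Crest.Agent.R339.C.Defs

/-! R339/C: the `n`-qubit states as path sums; norm bound. -/

set_option autoImplicit false
set_option linter.unusedVariables false
set_option linter.unusedSectionVars false
open MeasureTheory ProbabilityTheory Filter Topology Complex
open Crest.MathPhysics.SpinGlass
open scoped ComplexConjugate

noncomputable section
namespace Crest.Agent.R339.C

variable {n : ℕ} {E : (Fin n → Bool) → ℝ} {a : ℝ × ℝ} {r : Wd}

/-! ### part a -/

/-- `‖z‖² = conj z * z` in `ℂ`; expand, `∑ σ, ∏ j, conj (mixE β (σ j) (τ' j)) * mixE β (σ j) (τ j) = ∏ j, ∑ z, …`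
(`Finset.prod_univ_sum`/`Fintype.piFinset_univ`), `mixE_unit` -/
theorem mixer_norm (β : ℝ) (ψ : (Fin n → Bool) → ℂ) :
    ∑ σ, ‖mixerRotation n β ψ σ‖ ^ 2 = ∑ σ, ‖ψ σ‖ ^ 2 := by
  have h1 : ∀ τ' τ : Fin n → Bool, ∑ σ : Fin n → Bool, conj (∏ j, mixE β (σ j) (τ' j)) * ∏ j, mixE β (σ j) (τ j) =
      if τ = τ' then 1 else 0 := by
    intro τ' τ
    simp only [map_prod, ← Finset.prod_mul_distrib]
    rw [← Fintype.piFinset_univ, ← Finset.prod_univ_sum (fun _ => Finset.univ)
      fun j z => conj (mixE β z (τ' j)) * mixE β z (τ j)]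
    simp only [mixE_unit, Finset.prod_ite_zero, Finset.prod_const_one, Finset.mem_univ, forall_true_left, funext_iff]
  have h2 : ∀ σ, mixerRotation n β ψ σ = ∑ τ, (∏ j, mixE β (σ j) (τ j)) * ψ τ := fun _ => rfl
  apply ofReal_injective
  push_cast
  simp only [← conj_mul', h2, map_sum, map_mul, Finset.sum_mul_sum]
  rw [Finset.sum_comm]
  refine Finset.sum_congr rfl fun τ' _ => ?_
  rw [Finset.sum_comm]
  have h3 : ∀ τ, ∑ σ : Fin n → Bool, conj (∏ j, mixE β (σ j) (τ' j)) * conj (ψ τ') * ((∏ j, mixE β (σ j) (τ j)) * ψ τ) =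
      (if τ = τ' then 1 else 0) * (conj (ψ τ') * ψ τ) := fun τ => by
    rw [← h1, Finset.sum_mul]
    exact Finset.sum_congr rfl fun σ _ => by ring
  simp only [h3]
  simp

theorem cost_norm (γ : ℝ) (ψ : (Fin n → Bool) → ℂ) (σ : Fin n → Bool) : ‖costE E γ ψ σ‖ = ‖ψ σ‖ := by
  rw [costE, norm_mul, norm_exp]
  simp

theorem plus_norm : ∑ σ, ‖plusState n σ‖ ^ 2 = 1 := by
  have h : ((1 : ℝ) / Real.sqrt 2) ^ 2 = 1 / 2 := by rw [div_pow, Real.sq_sqrt zero_le_two, one_pow]
  simp only [plusState, norm_pow, norm_real, Real.norm_eq_abs, ← pow_right_comm _ 2 n, sq_abs, h]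
  simp

theorem fac_one (r : Wd) : Fac r fun _ => 1 := by
  induction r with
  | nil => exact fun _ => norm_one.le
  | cons a r ih => exact ⟨fun _ => 1, fun _ => 1, fun _ => norm_one.le, ih, funext fun _ => (mul_one _).symm⟩

theorem fac_single (r : Wd) (c : Pt r) : Fac r fun x => if x = c then 1 else 0 := by
  induction r with
  | nil => intro z; beta_reduce; split_ifs <;> simp
  | cons a r ih =>
    refine ⟨fun z => if z = c.1 then 1 else 0, _, fun z => by beta_reduce; split_ifs <;> simp, ih c.2, funext fun x => ?_⟩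
    have h : x = c ↔ x.1 = c.1 ∧ x.2 = c.2 := Prod.ext_iff
    by_cases h1 : x.1 = c.1 <;> by_cases h2 : x.2 = c.2 <;> simp [h, h1, h2]

/-- `List.foldl_reverse` / induction; `costRotation n J γ = costE (pairEnergy n J) γ` is `rfl` -/
theorem alt_eq (J : Fin n → Fin n → ℝ) (w : List (ℝ × ℝ)) :
    alternatingState n J w = stE n (pairEnergy n J) w.reverse := by
  rw [← w.reverse_reverse, alternatingState, List.foldl_reverse, List.reverse_reverse w.reverse]
  induction w.reverse with
  | nil => rfl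
  | cons a r ih => rw [List.foldr_cons, ih]; rfl

/-! ### part b -/

theorem ketb_eq (r : Wd) (u : Fin n → Pt r → ℂ) (σ : Fin n → Bool) : ketN n E r u σ =
    ∑ x : Fin n → Pt r, if (fun i => hd (x i)) = σ then
      (∏ i, (((1 : ℝ) / Real.sqrt 2 : ℝ) : ℂ) * (amp r (x i) * u i (x i))) * cexp (-(I * (phE n E r x : ℂ))) else 0 := by
  refine Finset.sum_congr rfl fun x _ => ?_
  rw [Finset.prod_ite_zero, ite_mul, zero_mul]
  simp only [funext_iff, Finset.mem_univ, forall_true_left]

theorem ketN_nil (u : Fin n → Pt [] → ℂ) (σ : Fin n → Bool) :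
    ketN n E [] u σ = (∏ i, u i (σ i)) * plusState n σ := by
  rw [ketb_eq]
  refine (Finset.sum_eq_single (ι := Fin n → Pt []) σ (fun x _ hx => if_neg hx) fun h => (h (Finset.mem_univ _)).elim).trans
    ((if_pos rfl).trans ?_)
  simp [amp, phE, plusState, Finset.prod_mul_distrib, mul_comm]

/-- split `x : Fin n → Bool × Pt r` (`Equiv.arrowProdEquivProdArrow`); on the left the heads are forced to be `σ`,
on the right the summation variable `τ` of the mixer is forced to be `fun i => hd (x i)` -/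
theorem ketN_cons (d : Fin n → Bool → ℂ) (u : Fin n → Pt r → ℂ) (σ : Fin n → Bool) :
    ketN n E (a :: r) (fun i x => d i x.1 * u i x.2) σ =
      (∏ i, d i (σ i)) * mixerRotation n a.2 (costE E a.1 (ketN n E r u)) σ := by
  have h1 : ∀ F : (Fin n → Pt (a :: r)) → ℂ, ∑ x, F x = ∑ y : Fin n → Pt r, ∑ s : Fin n → Bool, F fun i => pc a (s i) (y i) :=
    fun F => by
      rw [← Fintype.sum_prod_type_right' (fun (s : Fin n → Bool) (y : Fin n → Pt r) => F fun i => pc a (s i) (y i))]
      exact Fintype.sum_equiv (Equiv.arrowProdEquivProdArrow (Fin n) (fun _ => Bool) fun _ => Pt r) _ _ fun x => rfl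
  simp only [ketb_eq, mixerRotation, costE, Finset.mul_sum]
  rw [h1, Finset.sum_comm (β := ℂ) (s := Finset.univ) (t := (Finset.univ : Finset (Fin n → Pt r)))]
  refine Finset.sum_congr rfl fun y _ => ?_
  simp only [hd_pc, mul_ite, mul_zero, Finset.sum_ite_eq, Finset.sum_ite_eq', Finset.mem_univ, if_true, amp_cons, pc_fst, pc_snd,
    phE, Finset.prod_mul_distrib, mixE]
  push_cast
  rw [mul_add, neg_add, Complex.exp_add, ← mul_assoc I]
  ring

theorem ketN_one (r : Wd) : ketN n E r (fun _ _ => 1) = stE n E r := by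
  induction r with
  | nil => exact funext fun σ => by rw [ketN_nil, Finset.prod_const_one, one_mul, stE]
  | cons a r ih =>
    funext σ
    have := ketN_cons (E := E) (a := a) (fun _ _ => 1) (fun _ (_ : Pt r) => 1) σ
    simp only [mul_one, Finset.prod_const_one, one_mul, ih] at this
    exact this

/-- induction on `r` (`choose` the factors), `mixer_norm`, `cost_norm`, `plus_norm` -/
theorem ketN_norm (r : Wd) (u : Fin n → Pt r → ℂ) (h : ∀ i, Fac r (u i)) : ∑ σ, ‖ketN n E r u σ‖ ^ 2 ≤ 1 := by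
  have h1 : ∀ (d : Fin n → ℂ) (z : ℂ), (∀ i, ‖d i‖ ≤ 1) → ‖(∏ i, d i) * z‖ ^ 2 ≤ ‖z‖ ^ 2 := fun d z hd => by
    rw [norm_mul, norm_prod]
    exact pow_le_pow_left₀ (by positivity)
      (mul_le_of_le_one_left (norm_nonneg _) (Finset.prod_le_one (fun _ _ => norm_nonneg _) fun i _ => hd i)) 2
  induction r with
  | nil =>
    refine le_of_le_of_eq (Finset.sum_le_sum fun σ _ => ?_) (plus_norm (n := n))
    rw [ketN_nil]
    exact h1 _ _ fun i => h i _
  | cons a r ih =>
    choose d u' h2 h3 h4 using h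
    refine le_trans ?_ (ih u' h3)
    rw [funext h4]
    refine le_of_le_of_eq (Finset.sum_le_sum fun σ _ => ?_)
      ((mixer_norm a.2 _).trans (Finset.sum_congr rfl fun σ _ => by rw [cost_norm (E := E) a.1]))
    rw [ketN_cons]
    exact h1 _ _ fun i => h2 i _

end Crest.Agent.R339.C
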