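import Crest.Agent.R339.C.Zs

/-! R339/C: the limit `n → ∞`. -/

set_option autoImplicit false
set_option linter.unusedVariables false
set_option linter.unusedSectionVars false
open MeasureTheory ProbabilityTheory Filter Topology Complex
open Crest.MathPhysics.SpinGlass
open scoped ComplexConjugate

noncomputable section
namespace Crest.Agent.R339.C

variable {r : Wd}

/-! ### part a -/

theorem lima_zero {N : ℕ → ℕ} {lam : ℕ → ℝ} (hN : Tendsto N atTop atTop)
    (h1 : Tendsto (fun n => lam n * N n) atTop (𝓝 1)) : Tendsto lam atTop (𝓝 0) := by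
  refine (h1.div_atTop (tendsto_natCast_atTop_atTop.comp hN)).congr' ?_
  filter_upwards [hN.eventually_gt_atTop 0] with n hn
  exact mul_div_cancel_right₀ _ (by simpa using hn.ne')

theorem lima_coef {N : ℕ → ℕ} {lam : ℕ → ℝ} (hN : Tendsto N atTop atTop)
    (h1 : Tendsto (fun n => lam n * N n) atTop (𝓝 1)) (k : ℕ) :
    Tendsto (fun n => ((N n).choose k : ℝ) * lam n ^ k) atTop (𝓝 (1 / k.factorial)) := by
  induction k with
  | zero => simp
  | succ k ih =>
    have h2 := (ih.mul (h1.sub ((lima_zero hN h1).mul_const (k : ℝ)))).div_const ((k : ℝ) + 1)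
    rw [show 1 / (k.factorial : ℝ) * (1 - 0 * k) / (k + 1) = 1 / ((k + 1).factorial : ℕ) by
      rw [Nat.factorial_succ]; push_cast; field_simp; ring] at h2
    refine h2.congr' ?_
    filter_upwards [hN.eventually_ge_atTop k] with n hn
    have h3 : (((N n).choose (k + 1) : ℝ)) * (k + 1) = (N n).choose k * ((N n : ℝ) - k) := by
      exact_mod_cast congrArg (Nat.cast : ℕ → ℝ) (Nat.choose_succ_right_eq (N n) k)
    rw [div_eq_iff (by positivity)]
    linear_combination -lam n ^ (k + 1) * h3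

/-- `tendsto_tsum_of_dominated_convergence` with bound `(2 C)^k / k!` (`Nat.choose_le_pow_div`, eventually `lam n * N n ≤ 2`);
`choose N k * lam^k → 1 / k!` (`Nat.descFactorial_eq_factorial_mul_choose`, `lam * (N - i) → 1`); `NormedSpace.expSeries_div_hasSum_exp` -/
theorem binom_lim {N : ℕ → ℕ} {lam : ℕ → ℝ} (hN : Tendsto N atTop atTop) (h0 : ∀ n, 0 ≤ lam n)
    (h1 : Tendsto (fun n => lam n * N n) atTop (𝓝 1)) (T : ℕ → ℕ → ℂ) (C : ℝ) (z : ℂ)
    (hC : ∀ᶠ n in atTop, ∀ k, ‖T n k‖ ≤ C ^ k) (hT : ∀ k, Tendsto (fun n => T n k) atTop (𝓝 (z ^ k))) :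
    Tendsto (fun n => ∑ k ∈ Finset.range (N n + 1), ((N n).choose k : ℂ) * (lam n : ℂ) ^ k * T n k) atTop (𝓝 (cexp z)) := by

  have hs : HasSum (fun k : ℕ => z ^ k / (k.factorial : ℂ)) (cexp z) := by
    rw [Complex.exp_eq_exp_ℂ]; exact NormedSpace.expSeries_div_hasSum_exp z
  have h := tendsto_tsum_of_dominated_convergence (𝓕 := atTop)
    (f := fun n k => ((N n).choose k : ℂ) * (lam n : ℂ) ^ k * T n k)
    (g := fun k => z ^ k / (k.factorial : ℂ)) (Real.summable_pow_div_factorial (2 * C)) (fun k => by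
      have h2 := ((continuous_ofReal.tendsto _).comp (lima_coef hN h1 k)).mul (hT k)
      rw [show (((1 / (k.factorial : ℝ) : ℝ)) : ℂ) * z ^ k = z ^ k / (k.factorial : ℂ) by push_cast; ring] at h2
      refine h2.congr fun n => ?_
      simp) (by
      filter_upwards [hC, h1.eventually (gt_mem_nhds one_lt_two)] with n hn hn' k
      have hl := h0 n
      rw [norm_mul, norm_mul, norm_pow, Complex.norm_natCast, Complex.norm_real, Real.norm_of_nonneg hl]
      have h2 : ((N n).choose k : ℝ) * lam n ^ k ≤ 2 ^ k / k.factorial :=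
        calc ((N n).choose k : ℝ) * lam n ^ k ≤ (N n : ℝ) ^ k / k.factorial * lam n ^ k :=
            mul_le_mul_of_nonneg_right (Nat.choose_le_pow_div k (N n)) (by positivity)
          _ = (lam n * N n) ^ k / k.factorial := by rw [mul_pow]; ring
          _ ≤ 2 ^ k / k.factorial := by gcongr
      refine (mul_le_mul h2 (hn k) (norm_nonneg _) (by positivity)).trans_eq ?_
      rw [mul_pow]; ring)
  rw [hs.tsum_eq] at h
  refine h.congr fun n => tsum_eq_sum fun k hk => ?_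
  rw [Nat.choose_eq_zero_of_lt (by simpa [Nat.succ_le_iff] using hk)]
  simp

theorem lam_zero {N : ℕ → ℕ} {lam : ℕ → ℝ} (hN : Tendsto N atTop atTop)
    (h1 : Tendsto (fun n => lam n * N n) atTop (𝓝 1)) : Tendsto lam atTop (𝓝[≠] 0) := by

  refine tendsto_nhdsWithin_iff.2 ⟨lima_zero hN h1, ?_⟩
  filter_upwards [h1.eventually_ne one_ne_zero] with n hn
  exact left_ne_zero_of_mul hn

theorem slope_lim {lam : ℕ → ℝ} (h : Tendsto lam atTop (𝓝[≠] 0)) (g : ℝ) :
    Tendsto (fun n => (cexp (-((lam n / 2 * g : ℝ) : ℂ)) - 1) / (lam n : ℂ)) atTop (𝓝 (-(1 / 2) * (g : ℂ))) := by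

  have h1 : HasDerivAt (fun t : ℝ => cexp (-((t / 2 * g : ℝ) : ℂ))) (-(1 / 2) * (g : ℂ)) 0 :=
    ((((hasDerivAt_id (0 : ℝ)).div_const 2).mul_const g).ofReal_comp.neg.cexp).congr_deriv (by simp)
  refine ((hasDerivAt_iff_tendsto_slope_zero.1 h1).comp h).congr fun n => ?_
  simp [div_eq_inv_mul]

/-! ### part b -/

theorem limb_om_smul (t : ℂ) (u : P2 r → ℂ) : om r (fun b => t * u b) = t * om r u := by
  simp only [om, Finset.mul_sum]
  exact Finset.sum_congr rfl fun c _ => by ring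

theorem limb_om_sum {ι : Type} [Fintype ι] (u : ι → P2 r → ℂ) : om r (fun b => ∑ i, u i b) = ∑ i, om r (u i) := by
  simp only [om, Finset.mul_sum]
  exact Finset.sum_comm

theorem limb_om_lim {W : ℕ → P2 r → ℂ} {W0 : P2 r → ℂ} (h : ∀ b, Tendsto (fun n => W n b) atTop (𝓝 (W0 b))) :
    Tendsto (fun n => om r (W n)) atTop (𝓝 (om r W0)) :=
  tendsto_finsetSum _ fun c _ => (h c).const_mul _

/-- `exp (-lam g / 2) = 1 + lam * u`, `Zs_binom`, `binom_lim` with `T n k = Zs … (Fin k ⊕ Fin (N n - k))`, `Zs_bound`, `h` -/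
theorem cavity (h : Fact r) {N : ℕ → ℕ} {lam : ℕ → ℝ} (hN : Tendsto N atTop atTop) (h0 : ∀ n, 0 ≤ lam n)
    (h1 : Tendsto (fun n => lam n * N n) atTop (𝓝 1)) (g : P2 r → ℝ) :
    Tendsto (fun n => Zs r (Fin (N n)) (lam n) fun _ b => cexp (-((lam n / 2 * g b : ℝ) : ℂ))) atTop
      (𝓝 (cexp (-(1 / 2) * om r fun b => (g b : ℂ)))) := by
  have hl := lam_zero hN h1
  have hl0 : Tendsto lam atTop (𝓝 0) := hl.mono_right nhdsWithin_le_nhds
  have hne : ∀ᶠ n in atTop, lam n ≠ 0 := hl.eventually self_mem_nhdsWithin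
  set u : ℕ → P2 r → ℂ := fun n b => (cexp (-((lam n / 2 * g b : ℝ) : ℂ)) - 1) / (lam n : ℂ) with hu
  have hul : ∀ b, Tendsto (fun n => u n b) atTop (𝓝 (-(1 / 2) * (g b : ℂ))) := fun b => slope_lim hl (g b)
  have key := binom_lim hN h0 h1
    (fun n k => Zs r (Fin k ⊕ Fin (N n - k)) (lam n) (Sum.elim (fun _ => u n) 1))
    (∑ c, ‖-(1 / 2) * (g c : ℂ)‖ + 1) (-(1 / 2) * om r fun b => (g b : ℂ)) ?_ ?_
  · refine key.congr' ?_
    filter_upwards [hne] with n hn
    rw [← Zs_binom]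
    congr 1
    funext _ b
    have : (lam n : ℂ) ≠ 0 := by exact_mod_cast hn
    simp only [hu]
    field_simp
    ring
  · have hs : Tendsto (fun n => ∑ c, ‖u n c‖) atTop (𝓝 (∑ c, ‖-(1 / 2) * (g c : ℂ)‖)) :=
      tendsto_finsetSum _ fun c _ => (hul c).norm
    filter_upwards [hs.eventually (gt_mem_nhds (lt_add_one _))] with n hn k
    refine (Zs_bound (h0 n) _).trans ?_
    rw [Finset.prod_const, Finset.card_univ, Fintype.card_fin]
    exact pow_le_pow_left₀ (Finset.sum_nonneg fun c _ => norm_nonneg _) hn.le k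
  · intro k
    have hNk : Tendsto (fun n => N n - k) atTop atTop := (tendsto_sub_atTop_nat k).comp hN
    have h1k : Tendsto (fun n => lam n * ((N n - k : ℕ) : ℝ)) atTop (𝓝 1) := by
      have h2 : Tendsto (fun n => lam n * N n - lam n * k) atTop (𝓝 (1 - 0 * k)) := h1.sub (hl0.mul_const _)
      rw [zero_mul, sub_zero] at h2
      refine h2.congr' ?_
      filter_upwards [hN.eventually_ge_atTop k] with n hn
      rw [Nat.cast_sub hn]
      ring
    have h3 := h k (fun n => N n - k) lam hNk h0 h1k (fun n _ => u n) (fun _ b => -(1 / 2) * (g b : ℂ))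
      (fun _ b => hul b)
    rw [Finset.prod_const, Finset.card_univ, Fintype.card_fin, limb_om_smul] at h3
    exact h3

theorem fact_nil : Fact [] := by
  intro m N lam hN h0 h1 W W0 hW
  have h2 : ∀ n, Zs [] (Fin m ⊕ Fin (N n)) (lam n) (Sum.elim (W n) 1) = ∏ i, om [] (W n i) := by
    intro n
    rw [Zs_nil, Fintype.prod_sum_type]
    simp only [Sum.elim_inl, Sum.elim_inr, Pi.one_apply, om_nil_one, Finset.prod_const_one, mul_one]
  simp only [h2]
  exact tendsto_finsetProd _ fun i _ => limb_om_lim (hW i)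

theorem limb_wt {ι : Type} [Fintype ι] [DecidableEq ι] {lam : ℕ → ℝ} (h : Tendsto lam atTop (𝓝 0)) (x : ι → P2 r) :
    Tendsto (fun n => wt r (lam n) x) atTop (𝓝 1) := by
  have h1 : Continuous fun l : ℝ => wt r l x := by
    unfold wt
    fun_prop
  have h2 := (h1.tendsto 0).comp h
  have h3 : wt r 0 x = 1 := by simp [wt]
  rw [h3] at h2
  exact h2

/-- `Zs_split`, `Ph_cons`, `Zs_tail`, `cavity`; `wt → 1`; `Finset.prod_univ_sum` -/
theorem fact_cons (a : ℝ × ℝ) (h : Fact r) : Fact (a :: r) := by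
  intro m N lam hN h0 h1 W W0 hW
  have hl0 : Tendsto lam atTop (𝓝 0) := (lam_zero hN h1).mono_right nhdsWithin_le_nhds
  have h2 : ∀ n, Zs (a :: r) (Fin m ⊕ Fin (N n)) (lam n) (Sum.elim (W n) 1) =
      ∑ x : Fin m → P2 (a :: r), (∏ i, ff (a :: r) (x i) * W n i (x i)) * wt (a :: r) (lam n) x *
        Zs r (Fin (N n)) (lam n) fun _ c => cexp (-((lam n / 2 * ∑ i, Phn a.1 r (tl (x i)) c ^ 2 : ℝ) : ℂ)) := by
    intro n
    rw [Zs_split]
    refine Finset.sum_congr rfl fun x _ => ?_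
    rw [← Zs_tail (r := r) a]
    simp only [Ph_cons]
  have h3 : ∏ i, om (a :: r) (W0 i) = ∑ x : Fin m → P2 (a :: r), (∏ i, ff (a :: r) (x i) * W0 i (x i)) * 1 *
      cexp (-(1 / 2) * om r fun c => ((∑ i, Phn a.1 r (tl (x i)) c ^ 2 : ℝ) : ℂ)) := by
    have h4 : ∏ i, om (a :: r) (W0 i) =
        ∑ x : Fin m → P2 (a :: r), ∏ i, ff (a :: r) (x i) * HH (a :: r) (x i) * W0 i (x i) := by
      simp only [om]
      rw [Finset.prod_univ_sum, Fintype.piFinset_univ]
    rw [h4]
    refine Finset.sum_congr rfl fun x _ => ?_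
    have h5 : (fun c => ((∑ i, Phn a.1 r (tl (x i)) c ^ 2 : ℝ) : ℂ)) =
        fun c => ∑ i, ((Phn a.1 r (tl (x i)) c ^ 2 : ℝ) : ℂ) := by
      funext c
      rw [ofReal_sum]
    rw [h5, limb_om_sum, Finset.mul_sum, Complex.exp_sum, mul_one, ← Finset.prod_mul_distrib]
    refine Finset.prod_congr rfl fun i _ => ?_
    rw [HH_cons]
    ring
  simp only [h2]
  rw [h3]
  refine tendsto_finsetSum _ fun x _ => ?_
  refine ((tendsto_finsetProd _ fun i _ => (hW i (x i)).const_mul _).mul (limb_wt hl0 x)).mul ?_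
  exact cavity h hN h0 h1 fun c => ∑ i, Phn a.1 r (tl (x i)) c ^ 2

theorem fact_all : ∀ r : Wd, Fact r
  | [] => fact_nil
  | a :: r => fact_cons a (fact_all r)

/-! ### part c -/

theorem limc_cnt (n : ℕ) (z : ℂ) : ∑ k : Fin n, ∑ l : Fin n, (if k < l then z else 0) = n * (n - 1) / 2 * z := by
  induction n with
  | zero => simp
  | succ n ih =>
    simp only [Fin.sum_univ_succ, Fin.succ_lt_succ_iff, Fin.succ_pos, lt_self_iff_false, Fin.not_lt_zero, if_true, if_false,
      zero_add, ih, Finset.sum_const, Finset.card_univ, Fintype.card_fin, nsmul_eq_mul]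
    push_cast
    ring

/-- shift `n = N + 2`; `energy_eq`, `Zs_two`, the number of pairs `k < l` is `n (n-1) / 2`, `fact_all` with `m = 2`, `lam = 1 / (N + 2)` -/
theorem energy_lim (r : Wd) : Tendsto
    (fun n : ℕ => (∫ J, expectedEnergy n J (stE n (pairEnergy n J) r) ∂(gaussianCouplings n)) / n) atTop (𝓝 (eC r).re) := by
  let F : P2 r → P2 r → ℂ := fun c d => ((spinSign (hd c.1) * spinSign (hd d.1) * Ph r c d : ℝ) : ℂ)
  have h1 : Tendsto (fun N : ℕ => (1 : ℝ) / ((N + 2 : ℕ) : ℝ) * N) atTop (𝓝 1) :=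
    (tendsto_natCast_div_add_atTop (2 : ℝ)).congr fun N => by push_cast; ring
  have h2 : Tendsto (fun N : ℕ => ∑ c : P2 r, Zs r (Fin 2 ⊕ Fin N) (1 / ((N + 2 : ℕ) : ℝ))
      (Sum.elim ![fun b => if b = c then 1 else 0, F c] 1)) atTop (𝓝 (om r fun c => om r (F c))) := by
    refine tendsto_finsetSum _ fun c _ => ?_
    have := fact_all r 2 id (fun N => 1 / ((N + 2 : ℕ) : ℝ)) tendsto_id (fun N => by positivity) h1
      (fun _ => ![fun b => if b = c then 1 else 0, F c]) _ fun _ _ => tendsto_const_nhds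
    simpa [om] using this
  have h3 : Tendsto (fun N : ℕ => (((N + 1 : ℕ) : ℂ) / ((N + 1 : ℕ) + 1))) atTop (𝓝 1) :=
    (tendsto_natCast_div_add_atTop (1 : ℂ)).comp (tendsto_add_atTop_nat 1)
  have h4 := (continuous_re.tendsto _).comp ((h3.mul h2).const_mul (-I / 2))
  rw [one_mul] at h4
  refine (tendsto_add_atTop_iff_nat 2).1 (h4.congr fun N => ?_)
  have h5 := energy_eq (N + 2) r
  rw [Finset.sum_congr rfl fun k _ => Finset.sum_congr rfl fun l _ =>
    ite_congr rfl (fun h => Zs_two F (ne_of_lt h)) fun _ => rfl, limc_cnt] at h5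
  rw [← ofReal_re (_ / _), ofReal_div, h5, Function.comp_apply]
  congr 1
  have h6 : (N : ℂ) + 2 ≠ 0 := by exact_mod_cast (Nat.succ_ne_zero (N + 1) : N + 2 ≠ 0)
  have h7 : (N : ℂ) + 1 + 1 = N + 2 := by ring
  push_cast
  rw [h7]
  field_simp
  ring

end Crest.Agent.R339.C
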