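import Crest.Agent.R339.C.Lim
import Crest.Agent.R339.C.Fock2

/-! R339/C: the `n → ∞` limit of the QAOA energy. -/

set_option autoImplicit false

namespace Crest.Agent.R339

theorem climit {E K : Type} [NormedAddCommGroup E] [InnerProductSpace ℂ E]
    [NormedAddCommGroup K] [InnerProductSpace ℂ K] [CompleteSpace K] (M : Model E K) (j : K →ₗᵢ[ℂ] E) : S_C M j := by
  intro w
  simp only [C.alt_eq]
  rw [C.prun_eq, C.En0_eq]
  exact C.energy_lim _

end Crest.Agent.R339
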