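import Crest.Agent.R339.C.Ket
import Crest.Agent.R339.C.Gauss

/-! R339/C: two-sided path sums and their disorder average. -/

set_option autoImplicit false
set_option linter.unusedVariables false
set_option linter.unusedSectionVars false
open MeasureTheory ProbabilityTheory Filter Topology Complex
open Crest.MathPhysics.SpinGlass
open scoped ComplexConjugate

noncomputable section
namespace Crest.Agent.R339.C

variable {n : ℕ} {r : Wd}

/-! ### part a -/

theorem phE_enC (c : ℝ) (J : Fin n → Fin n → ℝ) (r : Wd) (x : Fin n → Pt r) :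
    phE n (enC n c J) r x = c * ∑ i, ∑ j, if i < j then J i j * phi r (x i) (x j) else 0 := by
  induction r with
  | nil => simp [phE, phi_nil]
  | cons a r ih =>
    have h : phE n (enC n c J) (a :: r) x =
        a.1 * enC n c J (fun i => hd (x i).2) + phE n (enC n c J) r fun i => (x i).2 := rfl
    rw [h, ih, enC, mul_left_comm, ← mul_add, Finset.mul_sum, ← Finset.sum_add_distrib]
    congr 1
    refine Finset.sum_congr rfl fun i _ => ?_
    rw [Finset.mul_sum, ← Finset.sum_add_distrib]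
    refine Finset.sum_congr rfl fun j _ => ?_
    rw [phi_cons]
    split_ifs <;> ring

theorem pa_phase (c : ℝ) (J : Fin n → Fin n → ℝ) (x y : Fin n → Pt r) :
    conj (cexp (-(I * (phE n (enC n c J) r y : ℂ)))) * cexp (-(I * (phE n (enC n c J) r x : ℂ))) =
      cexp (-(I * ((∑ i, ∑ j, J i j * tt n c r (fun i => (x i, y i)) i j : ℝ) : ℂ))) := by
  have h : (∑ i, ∑ j, J i j * tt n c r (fun i => (x i, y i)) i j : ℝ) =
      phE n (enC n c J) r x - phE n (enC n c J) r y := by
    rw [phE_enC, phE_enC, ← mul_sub, ← Finset.sum_sub_distrib, Finset.mul_sum]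
    refine Finset.sum_congr rfl fun i _ => ?_
    rw [← Finset.sum_sub_distrib, Finset.mul_sum]
    refine Finset.sum_congr rfl fun j _ => ?_
    simp only [tt, Ph]
    split_ifs <;> ring
  rw [h, ← Complex.exp_conj, ← Complex.exp_add]
  congr 1
  simp only [map_neg, map_mul, conj_I, conj_ofReal]
  push_cast
  ring

theorem pa_amp (u v : Fin n → Pt r → ℂ) (x y : Fin n → Pt r) :
    conj (∏ i, if hd (y i) = hd (x i) then (((1 : ℝ) / Real.sqrt 2 : ℝ) : ℂ) * (amp r (y i) * v i (y i)) else 0) *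
      (∏ i, if hd (x i) = hd (x i) then (((1 : ℝ) / Real.sqrt 2 : ℝ) : ℂ) * (amp r (x i) * u i (x i)) else 0) =
      ∏ i, ff r (x i, y i) * (conj (v i (y i)) * u i (x i)) := by
  have hs : (((1 : ℝ) / Real.sqrt 2 : ℝ) : ℂ) * (((1 : ℝ) / Real.sqrt 2 : ℝ) : ℂ) = 1 / 2 := by
    rw [← ofReal_mul, div_mul_div_comm, Real.mul_self_sqrt (by norm_num)]
    norm_num
  rw [map_prod, ← Finset.prod_mul_distrib]
  refine Finset.prod_congr rfl fun i _ => ?_
  rw [if_pos rfl, ff]
  by_cases h : hd (x i) = hd (y i)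
  · rw [if_pos h.symm, if_pos h, map_mul, map_mul, conj_ofReal, ← hs]
    ring
  · rw [if_neg (Ne.symm h), if_neg h, map_zero, zero_mul, zero_mul]

/-- expand both kets; `σ` is forced to be `fun i => hd (x i)`; pairs `(x, y)` ≃ `Fin n → P2 r` (`Equiv.arrowProdEquivProdArrow`) -/
theorem pair_sum (c : ℝ) (J : Fin n → Fin n → ℝ) (u v : Fin n → Pt r → ℂ) (O : (Fin n → Bool) → ℂ) :
    ∑ σ, conj (ketN n (enC n c J) r v σ) * ketN n (enC n c J) r u σ * O σ =
      ∑ a : Fin n → P2 r, (∏ i, ff r (a i) * (conj (v i (a i).2) * u i (a i).1)) * O (fun i => hd (a i).1) *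
        cexp (-(I * ((∑ i, ∑ j, J i j * tt n c r a i j : ℝ) : ℂ))) := by
  rw [← (Equiv.arrowProdEquivProdArrow (Fin n) (fun _ => Pt r) (fun _ => Pt r)).symm.sum_comp,
    Fintype.sum_prod_type]
  simp only [ketN, map_sum, Finset.sum_mul, Finset.mul_sum]
  rw [Finset.sum_comm]
  refine Finset.sum_congr rfl fun x _ => ?_
  rw [Finset.sum_comm]
  refine Finset.sum_congr rfl fun y _ => ?_
  rw [Finset.sum_eq_single (fun i => hd (x i))]
  · have h1 := pa_phase c J x y
    have h2 := pa_amp u v x y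
    change _ = (∏ i, ff r (x i, y i) * (conj (v i (y i)) * u i (x i))) * O (fun i => hd (x i)) *
      cexp (-(I * ((∑ i, ∑ j, J i j * tt n c r (fun i => (x i, y i)) i j : ℝ) : ℂ)))
    rw [← h1, ← h2, map_mul]
    ring
  · intro σ _ hσ
    obtain ⟨i, hi⟩ := Function.ne_iff.1 hσ
    have h0 : (∏ i, if hd (x i) = σ i then (((1 : ℝ) / Real.sqrt 2 : ℝ) : ℂ) * (amp r (x i) * u i (x i))
        else 0) = 0 := Finset.prod_eq_zero (Finset.mem_univ i) (if_neg (Ne.symm hi))
    rw [h0]
    simp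
  · simp

/-- `Ph_comm`, `Finset.sum_comm`, trichotomy -/
theorem wt_eq (c : ℝ) (a : Fin n → P2 r) :
    cexp (-((1 / 2 * ∑ i, ∑ j, tt n c r a i j ^ 2 : ℝ) : ℂ)) = wt r (c ^ 2) a := by
  have h : (∑ i, ∑ j, if i = j then 0 else Ph r (a i) (a j) ^ 2 : ℝ) =
      (∑ i, ∑ j, if i < j then Ph r (a i) (a j) ^ 2 else 0) +
        ∑ i, ∑ j, if j < i then Ph r (a j) (a i) ^ 2 else 0 := by
    rw [← Finset.sum_add_distrib]
    refine Finset.sum_congr rfl fun i _ => ?_
    rw [← Finset.sum_add_distrib]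
    refine Finset.sum_congr rfl fun j _ => ?_
    rcases lt_trichotomy i j with h | h | h
    · rw [if_neg h.ne, if_pos h, if_neg h.not_gt, add_zero]
    · subst h; simp
    · rw [if_neg h.ne', if_neg h.not_gt, if_pos h, zero_add, Ph_comm]
  have h2 : (∑ i, ∑ j, tt n c r a i j ^ 2 : ℝ) =
      c ^ 2 * ∑ i, ∑ j, if i < j then Ph r (a i) (a j) ^ 2 else 0 := by
    rw [Finset.mul_sum]
    refine Finset.sum_congr rfl fun i _ => ?_
    rw [Finset.mul_sum]
    refine Finset.sum_congr rfl fun j _ => ?_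
    simp only [tt]
    split_ifs <;> ring
  rw [wt, h, h2, Finset.sum_comm (f := fun i j => if j < i then Ph r (a j) (a i) ^ 2 else 0)]
  congr 3
  ring

/-! ### part b -/

/-- `c = √lam`: `Zs = ∫ ∑ σ, conj ket * ket` (`pair_sum` with `O = 1`, `integral_finset_sum`, `gauss_exp`, `wt_eq`);
the integrand has norm `≤ ∑ (‖·‖² + ‖·‖²)/2 ≤ 1` (`ketN_norm`), `norm_integral_le_of_norm_le_const` -/
theorem Zs_fac {lam : ℝ} (hl : 0 ≤ lam) (u v : Fin n → Pt r → ℂ) (hu : ∀ i, Fac r (u i)) (hv : ∀ i, Fac r (v i)) :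
    ‖Zs r (Fin n) lam fun i b => conj (v i b.2) * u i b.1‖ ≤ 1 := by
  have hc : Real.sqrt lam ^ 2 = lam := Real.sq_sqrt hl
  have h1 : Zs r (Fin n) lam (fun i b => conj (v i b.2) * u i b.1) =
      ∫ J, ∑ σ, conj (ketN n (enC n (Real.sqrt lam) J) r v σ) * ketN n (enC n (Real.sqrt lam) J) r u σ * (fun _ => (1 : ℂ)) σ
        ∂(gaussianCouplings n) := by
    simp only [pair_sum]
    rw [integral_finsetSum _ fun a _ => (gauss_int _).const_mul _]
    unfold Zs
    refine Finset.sum_congr rfl fun a _ => ?_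
    rw [integral_const_mul, gauss_exp, wt_eq, hc, mul_one]
  rw [h1]
  have h2 := norm_integral_le_of_norm_le_const (μ := gaussianCouplings n) (C := 1)
    (f := fun J => ∑ σ, conj (ketN n (enC n (Real.sqrt lam) J) r v σ) * ketN n (enC n (Real.sqrt lam) J) r u σ *
      (fun _ => (1 : ℂ)) σ) (Eventually.of_forall fun J => ?_)
  · simpa using h2
  have a1 := ketN_norm (E := enC n (Real.sqrt lam) J) r u hu
  have a2 := ketN_norm (E := enC n (Real.sqrt lam) J) r v hv
  refine (norm_sum_le _ _).trans ?_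
  have a3 : ∑ σ, ‖conj (ketN n (enC n (Real.sqrt lam) J) r v σ) * ketN n (enC n (Real.sqrt lam) J) r u σ *
      (fun _ => (1 : ℂ)) σ‖ ≤ ∑ σ, (‖ketN n (enC n (Real.sqrt lam) J) r u σ‖ ^ 2 +
        ‖ketN n (enC n (Real.sqrt lam) J) r v σ‖ ^ 2) / 2 := by
    refine Finset.sum_le_sum fun σ _ => ?_
    rw [mul_one, norm_mul, RCLike.norm_conj]
    nlinarith [sq_nonneg (‖ketN n (enC n (Real.sqrt lam) J) r u σ‖ - ‖ketN n (enC n (Real.sqrt lam) J) r v σ‖)]
  refine a3.trans ?_
  rw [← Finset.sum_div, Finset.sum_add_distrib]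
  linarith

/-- `pairEnergy n J = enC n (1/√n) J` is `rfl`; `ketN_one`, `pair_sum` with `O σ = pairEnergy n J σ`, `gauss_mul`, `wt_eq`,
`integral_ofReal` -/
theorem energy_eq (n : ℕ) (r : Wd) :
    ((∫ J, expectedEnergy n J (stE n (pairEnergy n J) r) ∂(gaussianCouplings n) : ℝ) : ℂ) =
      -I / n * ∑ k : Fin n, ∑ l : Fin n, if k < l then
        ∑ a : Fin n → P2 r, (∏ i, ff r (a i)) *
          ((spinSign (hd (a k).1) * spinSign (hd (a l).1) * Ph r (a k) (a l) : ℝ) : ℂ) * wt r (1 / n) a else 0 := by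
  set c : ℝ := 1 / Real.sqrt n with hc
  have hc2 : c ^ 2 = 1 / n := by
    rw [hc, div_pow, one_pow, Real.sq_sqrt (Nat.cast_nonneg n)]
  have hcc : (c : ℂ) * c = 1 / n := by
    have : ((c ^ 2 : ℝ) : ℂ) = ((1 / n : ℝ) : ℂ) := by rw [hc2]
    push_cast at this
    rw [← this, sq]
  have h1 : ∀ J : Fin n → Fin n → ℝ, ((expectedEnergy n J (stE n (pairEnergy n J) r) : ℝ) : ℂ) =
      ∑ a : Fin n → P2 r, ∑ k : Fin n, ∑ l : Fin n,
        (if k < l then (∏ i, ff r (a i)) * (c * ((spinSign (hd (a k).1) * spinSign (hd (a l).1) : ℝ) : ℂ)) else 0) *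
          ((J k l : ℂ) * cexp (-(I * ((∑ i, ∑ j, J i j * tt n c r a i j : ℝ) : ℂ)))) := by
    intro J
    have e : pairEnergy n J = enC n c J := rfl
    have h := pair_sum (r := r) c J (fun _ _ => 1) (fun _ _ => 1) (fun σ => ((enC n c J σ : ℝ) : ℂ))
    rw [ketN_one] at h
    have h' : ((expectedEnergy n J (stE n (pairEnergy n J) r) : ℝ) : ℂ) =
        ∑ σ, conj (stE n (enC n c J) r σ) * stE n (enC n c J) r σ * ((enC n c J σ : ℝ) : ℂ) := by
      unfold expectedEnergy
      rw [e, Complex.ofReal_sum]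
      refine Finset.sum_congr rfl fun σ _ => ?_
      rw [Complex.conj_mul', Complex.ofReal_mul, Complex.ofReal_pow]
    rw [h', h]
    refine Finset.sum_congr rfl fun a _ => ?_
    simp only [map_one, mul_one]
    unfold enC
    rw [Complex.ofReal_mul, Complex.ofReal_sum, Finset.mul_sum, Finset.mul_sum, Finset.sum_mul]
    refine Finset.sum_congr rfl fun k _ => ?_
    rw [Complex.ofReal_sum, Finset.mul_sum, Finset.mul_sum, Finset.sum_mul]
    refine Finset.sum_congr rfl fun l _ => ?_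
    split_ifs
    · simp only [Complex.ofReal_mul]; ring
    · simp
  rw [← integral_complex_ofReal]
  have h2 : (fun J : Fin n → Fin n → ℝ => ((expectedEnergy n J (stE n (pairEnergy n J) r) : ℝ) : ℂ)) = _ := funext h1
  rw [h2, integral_finsetSum _ fun a _ => integrable_finsetSum _ fun k _ => integrable_finsetSum _ fun l _ =>
    (gauss_int_mul _ k l).const_mul _]
  have h3 : ∀ a : Fin n → P2 r, ∫ J : Fin n → Fin n → ℝ, ∑ k : Fin n, ∑ l : Fin n,
        (if k < l then (∏ i, ff r (a i)) * (c * ((spinSign (hd (a k).1) * spinSign (hd (a l).1) : ℝ) : ℂ)) else 0) *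
          ((J k l : ℂ) * cexp (-(I * ((∑ i, ∑ j, J i j * tt n c r a i j : ℝ) : ℂ)))) ∂(gaussianCouplings n) =
      ∑ k : Fin n, ∑ l : Fin n, -I / n * if k < l then (∏ i, ff r (a i)) *
          ((spinSign (hd (a k).1) * spinSign (hd (a l).1) * Ph r (a k) (a l) : ℝ) : ℂ) * wt r (1 / n) a else 0 := by
    intro a
    rw [integral_finsetSum _ fun k _ => integrable_finsetSum _ fun l _ => (gauss_int_mul _ k l).const_mul _]
    refine Finset.sum_congr rfl fun k _ => ?_
    rw [integral_finsetSum _ fun l _ => (gauss_int_mul _ k l).const_mul _]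
    refine Finset.sum_congr rfl fun l _ => ?_
    rw [integral_const_mul, gauss_mul, wt_eq, hc2]
    split_ifs with hkl
    · have : tt n c r a k l = c * Ph r (a k) (a l) := by unfold tt; rw [if_pos hkl]
      rw [this]
      simp only [Complex.ofReal_mul]
      linear_combination (-I * (∏ i, ff r (a i)) * (spinSign (hd (a k).1) : ℂ) * (spinSign (hd (a l).1) : ℂ) *
        (Ph r (a k) (a l) : ℂ) * wt r (1 / n) a) * hcc
    · simp
  simp only [h3]
  rw [Finset.sum_comm, Finset.mul_sum]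
  refine Finset.sum_congr rfl fun k _ => ?_
  rw [Finset.sum_comm, Finset.mul_sum]
  refine Finset.sum_congr rfl fun l _ => ?_
  split_ifs
  · rw [Finset.mul_sum]
  · simp

end Crest.Agent.R339.C
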