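import Crest.Agent.R339.C.Pair

/-! R339/C: combinatorics of the path sum `Zs`. -/

set_option autoImplicit false
set_option linter.unusedVariables false
set_option linter.unusedSectionVars false
open MeasureTheory ProbabilityTheory Filter Topology Complex
open Crest.MathPhysics.SpinGlass
open scoped ComplexConjugate

noncomputable section
namespace Crest.Agent.R339.C

variable {r : Wd} {ι κ : Type} [Fintype ι] [DecidableEq ι] [Fintype κ] [DecidableEq κ] {lam : ℝ}

/-! ### part a -/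

theorem zsa_wt_equiv (e : κ ≃ ι) (b : ι → P2 r) : wt r lam (fun k => b (e k)) = wt r lam b := by
  unfold wt
  have h : (∑ i : κ, ∑ j : κ, if i = j then (0 : ℝ) else Ph r (b (e i)) (b (e j)) ^ 2) =
      ∑ i : ι, ∑ j : ι, if i = j then (0 : ℝ) else Ph r (b i) (b j) ^ 2 := by
    refine Fintype.sum_equiv e _ _ fun i => Fintype.sum_equiv e _ _ fun j => ?_
    simp only [e.apply_eq_iff_eq]
  rw [h]

theorem Zs_equiv (e : κ ≃ ι) (W : ι → P2 r → ℂ) : Zs r κ lam (fun i => W (e i)) = Zs r ι lam W := by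
  unfold Zs
  symm
  refine Fintype.sum_equiv (Equiv.arrowCongr e.symm (Equiv.refl _)) _ _ fun b => ?_
  have hb : (Equiv.arrowCongr e.symm (Equiv.refl (P2 r))) b = fun k => b (e k) := by
    funext k; simp
  rw [hb, zsa_wt_equiv e b]
  congr 1
  exact (Fintype.prod_equiv e _ _ fun k => rfl).symm

/-- `Fin m ⊕ Fin N ≃ ι` extending `e` (`Equiv.ofInjective`, `Fintype.equivFinOfCardEq` on the complement of the range, `Equiv.Set.sumCompl`) -/
theorem Zs_embed {m N : ℕ} (e : Fin m → ι) (he : Function.Injective e) (hc : Fintype.card ι = m + N) (W : ι → P2 r → ℂ)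
    (h1 : ∀ i, i ∉ Set.range e → W i = 1) :
    Zs r ι lam W = Zs r (Fin m ⊕ Fin N) lam (Sum.elim (fun k => W (e k)) 1) := by
  classical
  have hcard : Fintype.card (↥(Set.range e)ᶜ) = N := by
    rw [Fintype.card_compl_set, Set.card_range_of_injective he, Fintype.card_fin, hc]
    omega
  let e2 : Fin N ≃ ↥(Set.range e)ᶜ := (Fintype.equivFinOfCardEq hcard).symm
  let E : Fin m ⊕ Fin N ≃ ι := ((Equiv.ofInjective e he).sumCongr e2).trans (Equiv.Set.sumCompl (Set.range e))
  rw [← Zs_equiv E W]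
  congr 1
  funext i
  cases i with
  | inl k => simp [E]
  | inr l =>
    have : E (Sum.inr l) = (e2 l : ι) := by simp [E]
    rw [this, h1 _ (e2 l).2]
    rfl

theorem Zs_nil (W : ι → P2 [] → ℂ) : Zs [] ι lam W = ∏ i, om [] (W i) := by
  unfold Zs om
  rw [Fintype.prod_sum]
  refine Finset.sum_congr rfl fun a _ => ?_
  have : wt [] lam a = 1 := by
    unfold wt
    simp [Ph_nil]
  rw [this, mul_one]
  refine Finset.prod_congr rfl fun i _ => ?_
  rw [HH_nil, mul_one]

theorem om_nil_one : om [] 1 = 1 := by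
  unfold om
  rw [Fintype.sum_prod_type, sum_nil]
  simp only [sum_nil, Fintype.sum_bool, ff, hd_nil, amp_nil, HH_nil]
  norm_num

theorem zsa_wt_split (a : κ → P2 r) (b : ι → P2 r) : wt r lam (Sum.elim a b) =
    wt r lam a * ((∏ j, cexp (-((lam / 2 * ∑ i, Ph r (a i) (b j) ^ 2 : ℝ) : ℂ))) * wt r lam b) := by
  unfold wt
  rw [← Complex.exp_sum, ← Complex.exp_add, ← Complex.exp_add]
  congr 1
  rw [Finset.sum_neg_distrib, ← Complex.ofReal_sum, ← neg_add, ← neg_add, ← Complex.ofReal_add, ← Complex.ofReal_add]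
  congr 2
  have hc : (∑ j, ∑ i, Ph r (b j) (a i) ^ 2) = ∑ j, ∑ i, Ph r (a i) (b j) ^ 2 :=
    Finset.sum_congr rfl fun j _ => Finset.sum_congr rfl fun i _ => by rw [Ph_comm]
  have hc' : (∑ i, ∑ j, Ph r (a i) (b j) ^ 2) = ∑ j, ∑ i, Ph r (a i) (b j) ^ 2 := Finset.sum_comm
  simp only [Fintype.sum_sum_type, Sum.elim_inl, Sum.elim_inr, Sum.inl.injEq, Sum.inr.injEq, reduceCtorEq, if_false,
    Finset.sum_add_distrib]
  rw [hc, hc', ← Finset.mul_sum]
  ring

/-- cavity decomposition: `Equiv.sumArrowEquivProdArrow`, `Fintype.sum_sum_type`, `Ph_comm` -/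
theorem Zs_split (W : κ → P2 r → ℂ) : Zs r (κ ⊕ ι) lam (Sum.elim W 1) =
    ∑ a : κ → P2 r, (∏ i, ff r (a i) * W i (a i)) * wt r lam a *
      Zs r ι lam fun _ b => cexp (-((lam / 2 * ∑ i, Ph r (a i) b ^ 2 : ℝ) : ℂ)) := by
  unfold Zs
  rw [← (Equiv.sumArrowEquivProdArrow κ ι (P2 r)).symm.sum_comp, Fintype.sum_prod_type]
  refine Finset.sum_congr rfl fun a _ => ?_
  rw [Finset.mul_sum]
  refine Finset.sum_congr rfl fun b _ => ?_
  have hab : (Equiv.sumArrowEquivProdArrow κ ι (P2 r)).symm (a, b) = Sum.elim a b := rfl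
  rw [hab, zsa_wt_split, Fintype.prod_sum_type]
  simp only [Sum.elim_inl, Sum.elim_inr, Pi.one_apply, mul_one, Finset.prod_mul_distrib]
  ring

/-! ### part b -/

/-- `mixE_unit` -/
theorem ff_sum (a : ℝ × ℝ) (b : P2 r) : ∑ z : Bool × Bool, ff (a :: r) (pc a z.1 b.1, pc a z.2 b.2) = ff r b := by
  have h := mixE_unit a.2 (hd b.1) (hd b.2)
  rw [Fintype.sum_prod_type]
  have e : ∀ z1 : Bool, ∑ z2 : Bool, ff (a :: r) (pc a z1 b.1, pc a z2 b.2) =
      1 / 2 * (conj (amp r b.2) * amp r b.1) * (conj (mixE a.2 z1 (hd b.2)) * mixE a.2 z1 (hd b.1)) := by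
    intro z1
    simp only [ff, hd_pc, amp_cons, pc_fst, pc_snd, Finset.sum_ite_eq, Finset.mem_univ, if_true, map_mul]
    ring
  simp only [e]
  rw [← Finset.mul_sum, h, ff]
  split_ifs <;> simp

/-- heads and tails of a configuration of two-sided paths -/
def zsb_eq (a : ℝ × ℝ) (r : Wd) (ι : Type) : (ι → Bool × Bool) × (ι → P2 r) ≃ (ι → P2 (a :: r)) where
  toFun p := fun i => (pc a (p.1 i).1 (p.2 i).1, pc a (p.1 i).2 (p.2 i).2)
  invFun x := (fun i => ((x i).1.1, (x i).2.1), fun i => tl (x i))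
  left_inv _ := rfl
  right_inv _ := rfl

/-- the last mixers cancel, then the last cost gates: split `ι → P2 (a :: r)` into heads `ι → Bool × Bool` and tails `ι → P2 r`;
the weight depends on the tails only (`Ph_cons`); sum the heads (`ff_sum`); on the support of `∏ ff r`, `Phn = Ph` -/
theorem Zs_tail (a : ℝ × ℝ) (W : ι → P2 r → ℂ) : Zs (a :: r) ι lam (fun i b => W i (tl b)) = Zs r ι lam W := by
  unfold Zs
  rw [← (zsb_eq a r ι).sum_comp, Fintype.sum_prod_type, Finset.sum_comm]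
  refine Finset.sum_congr rfl fun b _ => ?_
  have e1 : ∀ h : ι → Bool × Bool, (∏ i, ff (a :: r) (zsb_eq a r ι (h, b) i) * W i (tl (zsb_eq a r ι (h, b) i))) *
      wt (a :: r) lam (zsb_eq a r ι (h, b)) =
      (∏ i, ff (a :: r) (pc a (h i).1 (b i).1, pc a (h i).2 (b i).2) * W i (b i)) *
        cexp (-((lam / 4 * ∑ i, ∑ j, if i = j then 0 else Phn a.1 r (b i) (b j) ^ 2 : ℝ) : ℂ)) := by
    intro h
    simp only [wt, Ph_cons]
    rfl
  simp only [e1]
  rw [← Finset.sum_mul]
  have e2 : ∑ h : ι → Bool × Bool, ∏ i, ff (a :: r) (pc a (h i).1 (b i).1, pc a (h i).2 (b i).2) * W i (b i) =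
      ∏ i, ff r (b i) * W i (b i) := by
    rw [← Fintype.piFinset_univ, ← Finset.prod_univ_sum (fun _ : ι => (Finset.univ : Finset (Bool × Bool)))
      (fun i z => ff (a :: r) (pc a z.1 (b i).1, pc a z.2 (b i).2) * W i (b i))]
    refine Finset.prod_congr rfl fun i _ => ?_
    rw [← Finset.sum_mul, ff_sum]
  rw [e2]
  by_cases hb : ∀ i, hd (b i).1 = hd (b i).2
  · have e3 : ∀ i j, Phn a.1 r (b i) (b j) = Ph r (b i) (b j) := by
      intro i j
      rw [Phn, hb i, hb j]; ring
    simp only [e3, wt]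
  · push Not at hb
    obtain ⟨i, hi⟩ := hb
    have : ∏ i, ff r (b i) * W i (b i) = 0 :=
      Finset.prod_eq_zero (Finset.mem_univ i) (by rw [ff, if_neg hi, zero_mul])
    rw [this, zero_mul, zero_mul]

/-- `∏ (1 + t u) = ∑ S, t^|S| ∏_{i ∈ S} u` (`Finset.prod_one_add`), `Zs_embed` with `S.orderEmbOfFin`,
`Finset.sum_powerset_apply_card` / `Finset.sum_powerset` + `card_powersetCard` -/
theorem Zs_binom (N : ℕ) (t : ℂ) (u : P2 r → ℂ) : Zs r (Fin N) lam (fun _ b => 1 + t * u b) =
    ∑ k ∈ Finset.range (N + 1), (N.choose k : ℂ) * t ^ k * Zs r (Fin k ⊕ Fin (N - k)) lam (Sum.elim (fun _ => u) 1) := by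
  have e1 : Zs r (Fin N) lam (fun _ b => 1 + t * u b) =
      ∑ S ∈ (Finset.univ : Finset (Fin N)).powerset, t ^ S.card * Zs r (Fin N) lam (fun i => if i ∈ S then u else 1) := by
    unfold Zs
    simp only [Finset.mul_sum]
    rw [Finset.sum_comm]
    refine Finset.sum_congr rfl fun x _ => ?_
    rw [Finset.prod_mul_distrib, Finset.prod_one_add, Finset.mul_sum, Finset.sum_mul]
    refine Finset.sum_congr rfl fun S _ => ?_
    rw [Finset.prod_mul_distrib, Finset.prod_mul_distrib, Finset.prod_const]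
    have : ∏ i, (if i ∈ S then u else 1) (x i) = ∏ i ∈ S, u (x i) := by
      rw [← Finset.prod_ite_mem_eq S]
      refine Finset.prod_congr rfl fun i _ => ?_
      split_ifs <;> rfl
    rw [this]; ring
  have e2 : ∀ S : Finset (Fin N), Zs r (Fin N) lam (fun i => if i ∈ S then u else 1) =
      Zs r (Fin S.card ⊕ Fin (N - S.card)) lam (Sum.elim (fun _ => u) 1) := by
    intro S
    have hS : S.card ≤ N := by simpa using S.card_le_univ
    rw [Zs_embed (m := S.card) (N := N - S.card) (S.orderEmbOfFin rfl) (S.orderEmbOfFin rfl).injective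
      (by rw [Fintype.card_fin]; omega) _ (fun i hi => by
        rw [Finset.range_orderEmbOfFin] at hi
        exact if_neg hi)]
    congr 2
    funext k
    exact if_pos (S.orderEmbOfFin_mem rfl k)
  rw [e1]
  simp only [e2]
  rw [Finset.sum_powerset_apply_card (fun k => t ^ k * Zs r (Fin k ⊕ Fin (N - k)) lam (Sum.elim (fun _ => u) 1))]
  simp only [Finset.card_univ, Fintype.card_fin, nsmul_eq_mul, mul_assoc]

/-! ### part c -/

/-- multilinearity in the left block -/
theorem Zs_multi (W : κ → P2 r → ℂ) : Zs r (κ ⊕ ι) lam (Sum.elim W 1) =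
    ∑ c : κ → P2 r, (∏ i, W i (c i)) * Zs r (κ ⊕ ι) lam (Sum.elim (fun i b => if b = c i then 1 else 0) 1) := by
  simp only [Zs, Finset.mul_sum]
  rw [Finset.sum_comm]
  refine Finset.sum_congr rfl fun a _ => ?_
  rw [Finset.sum_eq_single (fun i => a (Sum.inl i))]
  · simp only [Fintype.prod_sum_type, Sum.elim_inl, Sum.elim_inr, if_true, mul_one, Finset.prod_mul_distrib, Pi.one_apply,
      Finset.prod_const_one]
    ring
  · intro c _ hc
    obtain ⟨i, hi⟩ := Function.ne_iff.1 hc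
    rw [Finset.prod_eq_zero (Finset.mem_univ (Sum.inl i)), zero_mul, mul_zero]
    rw [Sum.elim_inl, if_neg (Ne.symm hi), mul_zero]
  · exact fun h => absurd (Finset.mem_univ _) h

/-- `Zs_multi`, `Zs_equiv finSumFinEquiv.symm`, `Zs_fac` with `fac_single`, `fac_one`; `Finset.prod_univ_sum` -/
theorem Zs_bound (hl : 0 ≤ lam) {m N : ℕ} (W : Fin m → P2 r → ℂ) :
    ‖Zs r (Fin m ⊕ Fin N) lam (Sum.elim W 1)‖ ≤ ∏ i, ∑ c, ‖W i c‖ := by
  rw [Zs_multi, Finset.prod_univ_sum, Fintype.piFinset_univ]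
  refine (norm_sum_le _ _).trans (Finset.sum_le_sum fun c _ => ?_)
  rw [norm_mul, norm_prod]
  refine mul_le_of_le_one_right (Finset.prod_nonneg fun i _ => norm_nonneg _) ?_
  rw [← Zs_equiv finSumFinEquiv.symm]
  have h := Zs_fac (r := r) hl
    (fun i => Sum.elim (fun k x => if x = (c k).1 then (1 : ℂ) else 0) (fun _ _ => 1) (finSumFinEquiv.symm i : Fin m ⊕ Fin N))
    (fun i => Sum.elim (fun k x => if x = (c k).2 then (1 : ℂ) else 0) (fun _ _ => 1) (finSumFinEquiv.symm i : Fin m ⊕ Fin N))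
    (fun i => by
      rcases (finSumFinEquiv.symm i : Fin m ⊕ Fin N) with k | k
      · exact fac_single r _
      · exact fac_one r)
    (fun i => by
      rcases (finSumFinEquiv.symm i : Fin m ⊕ Fin N) with k | k
      · exact fac_single r _
      · exact fac_one r)
  refine le_of_eq_of_le ?_ h
  congr 2
  funext i b
  rcases (finSumFinEquiv.symm i : Fin m ⊕ Fin N) with k | k
  · simp only [Sum.elim_inl, Prod.ext_iff]
    by_cases h1 : b.1 = (c k).1 <;> by_cases h2 : b.2 = (c k).2 <;> simp [h1, h2]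
  · simp

/-- a two-site function: `F (a k) (a l) = ∑ c, [a k = c] * F c (a l)`, `Zs_embed ![k, l]` -/
theorem Zs_two {N : ℕ} (F : P2 r → P2 r → ℂ) {k l : Fin (N + 2)} (hkl : k ≠ l) :
    ∑ a : Fin (N + 2) → P2 r, (∏ i, ff r (a i)) * F (a k) (a l) * wt r lam a =
      ∑ c : P2 r, Zs r (Fin 2 ⊕ Fin N) lam (Sum.elim ![fun b => if b = c then 1 else 0, F c] 1) := by
  have he : Function.Injective (![k, l] : Fin 2 → Fin (N + 2)) := by
    intro i j hij
    fin_cases i <;> fin_cases j <;> simp_all [hkl.symm]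
  have key : ∀ c : P2 r, Zs r (Fin 2 ⊕ Fin N) lam (Sum.elim ![fun b => if b = c then 1 else 0, F c] 1) =
      ∑ a : Fin (N + 2) → P2 r, (∏ i, ff r (a i)) * ((if a k = c then 1 else 0) * F c (a l)) * wt r lam a := by
    intro c
    have h := Zs_embed (r := r) (lam := lam) (N := N) ![k, l] he (by rw [Fintype.card_fin, add_comm])
      (fun i b => (if i = k then (if b = c then 1 else 0) else 1) * if i = l then F c b else 1) (fun i hi => by
        funext b
        rw [if_neg (fun h => hi ⟨0, h.symm⟩), if_neg (fun h => hi ⟨1, h.symm⟩), mul_one, Pi.one_apply])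
    have e : (fun (j : Fin 2) (b : P2 r) => (if (![k, l] : Fin 2 → Fin (N + 2)) j = k then (if b = c then (1 : ℂ) else 0) else 1) *
        if (![k, l] : Fin 2 → Fin (N + 2)) j = l then F c b else 1) = ![fun b => if b = c then 1 else 0, F c] := by
      funext j b
      fin_cases j <;> simp [hkl, hkl.symm]
    rw [e] at h
    rw [← h, Zs]
    refine Finset.sum_congr rfl fun a _ => ?_
    simp only [Finset.prod_mul_distrib, Finset.prod_ite_eq', Finset.mem_univ, if_true]
  simp only [key]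
  rw [Finset.sum_comm]
  refine Finset.sum_congr rfl fun a _ => ?_
  simp only [ite_mul, one_mul, zero_mul, mul_ite, mul_zero, Finset.sum_ite_eq, Finset.mem_univ, if_true]

end Crest.Agent.R339.C
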